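import Vale.Agent.P279.Spec

namespace Vale.Agent.P279

open MvPolynomial

namespace ConeM

variable {k : Type} [Field k]

lemma quo {G H : MvPolynomial (Fin 3) k} {d : ℕ} (hG : G.IsHomogeneous 3) (hH : H.IsHomogeneous d)
    (h0 : H ≠ 0) (h : G ∣ H) : ∃ n Q, d = 3 + n ∧ Q.IsHomogeneous n ∧ H = G * Q := by
  obtain ⟨Q, hQ⟩ := h
  have h1 : H = ∑ n ∈ Finset.range (Q.totalDegree + 1),
      if d = 3 + n then G * homogeneousComponent n Q else 0 := by
    conv_lhs => rw [← homogeneousComponent_eq_self hH, hQ, ← sum_homogeneousComponent Q,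
      Finset.mul_sum, map_sum]
    exact Finset.sum_congr rfl fun n _ =>
      homogeneousComponent_of_mem (hG.mul (homogeneousComponent_isHomogeneous n Q))
  obtain ⟨n, hn, h2⟩ := Finset.exists_ne_zero_of_sum_ne_zero (h1 ▸ h0)
  have h3 : d = 3 + n := by
    by_contra hc
    exact h2 (if_neg hc)
  refine ⟨n, _, h3, homogeneousComponent_isHomogeneous n Q, ?_⟩
  rw [h1, Finset.sum_eq_single n (fun b _ hb => if_neg (by omega)) (fun h => absurd hn h),
    if_pos h3]

lemma dec {G : MvPolynomial (Fin 3) k} (hG : G.IsHomogeneous 3) (d : ℕ) :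
    ∀ H : MvPolynomial (Fin 3) k, H.IsHomogeneous d → H ≠ 0 → ∃ (j : ℕ) (H' : MvPolynomial (Fin 3) k),
      3 * j ≤ d ∧ H'.IsHomogeneous (d - 3 * j) ∧ ¬ G ∣ H' ∧ H = G ^ j * H' := by
  induction d using Nat.strong_induction_on with
  | _ d ih =>
    intro H hH h0
    by_cases h : G ∣ H
    · obtain ⟨n, Q, rfl, hQ, rfl⟩ := quo hG hH h0 h
      obtain ⟨j, H', h1, h2, h3, rfl⟩ := ih n (by omega) Q hQ (right_ne_zero_of_mul h0)
      exact ⟨j + 1, H', by omega, by rwa [show 3 + n - 3 * (j + 1) = n - 3 * j by omega], h3,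
        by ring⟩
    · exact ⟨0, H, by omega, by simpa using hH, h, by simp⟩

/-- the coefficient of `y ^ e` -/
noncomputable def cf (F : MvPolynomial (Fin 3) (Polynomial k)) (e : ℕ) : MvPolynomial (Fin 3) k :=
  ∑ a ∈ F.support, monomial a ((coeff a F).coeff e)

lemma coeff_cf (F : MvPolynomial (Fin 3) (Polynomial k)) (e : ℕ) (a : Fin 3 →₀ ℕ) :
    coeff a (cf F e) = (coeff a F).coeff e := by
  classical
  rw [cf, coeff_sum]
  simp only [coeff_monomial]
  rw [Finset.sum_ite_eq']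
  split_ifs with h
  · rfl
  · rw [notMem_support_iff.1 h]; simp

lemma cf_hom {F : MvPolynomial (Fin 3) (Polynomial k)} {d : ℕ} (hF : F.IsHomogeneous d) (e : ℕ) :
    (cf F e).IsHomogeneous d := fun a ha => hF fun h => ha (by rw [coeff_cf, h]; simp)

lemma sum_cf (F : MvPolynomial (Fin 3) (Polynomial k)) : ∃ N : ℕ,
    F = ∑ e ∈ Finset.range N, C (Polynomial.X ^ e) * map Polynomial.C (cf F e) := by
  refine ⟨(F.support.sup fun a => (coeff a F).natDegree) + 1, ?_⟩
  ext1 a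
  have h : (coeff a F).natDegree < (F.support.sup fun a => (coeff a F).natDegree) + 1 := by
    by_cases ha : a ∈ F.support
    · exact Nat.lt_succ_of_le (Finset.le_sup (f := fun a => (coeff a F).natDegree) ha)
    · rw [notMem_support_iff.1 ha]; simp
  rw [coeff_sum]
  simp only [coeff_C_mul, coeff_map, coeff_cf]
  conv_lhs => rw [(coeff a F).as_sum_range' _ h]
  exact Finset.sum_congr rfl fun e _ => by rw [mul_comm, Polynomial.C_mul_X_pow_eq_monomial]

variable {A : Type} [CommRing A]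

lemma cong (φ : k →+* A) {J : Ideal A} {ϑ : Fin 3 → A} {P0 : Fin 3 → k}
    (h : ∀ a, ϑ a - φ (P0 a) ∈ J) (H : MvPolynomial (Fin 3) k) :
    eval₂ φ ϑ H - φ (eval P0 H) ∈ J := by
  induction H using MvPolynomial.induction_on with
  | C a => simp
  | add p q hp hq =>
    rw [eval₂_add, map_add, map_add, add_sub_add_comm]
    exact J.add_mem hp hq
  | mul_X p a hp =>
    rw [eval₂_mul, eval₂_X, map_mul, eval_X, map_mul]
    have := J.add_mem (J.mul_mem_right (ϑ a) hp) (J.mul_mem_left (φ (eval P0 p)) (h a))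
    convert this using 1
    ring

/-- substitution of the moving point -/
noncomputable def ps (φ : k →+* A) (ϑ : Fin 3 → A) (η : A) (i : Fin 3) :
    MvPolynomial (Fin 3) (Polynomial k) →+* Polynomial A :=
  eval₂Hom (Polynomial.mapRingHom φ)
    fun a => Polynomial.C (ϑ a) + if a = i then Polynomial.X * Polynomial.C η else 0

lemma taylor (φ : k →+* A) (ϑ : Fin 3 → A) (η : A) (i : Fin 3) (H : MvPolynomial (Fin 3) k) :
    ∃ Q, ps φ ϑ η i (map Polynomial.C H) = Polynomial.C (eval₂ φ ϑ H) +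
      Polynomial.X * (Polynomial.C (η * eval₂ φ ϑ (pderiv i H)) + Polynomial.X * Q) := by
  induction H using MvPolynomial.induction_on with
  | C a => exact ⟨0, by simp [ps]⟩
  | add p q hp hq =>
    obtain ⟨Q1, h1⟩ := hp
    obtain ⟨Q2, h2⟩ := hq
    refine ⟨Q1 + Q2, ?_⟩
    rw [map_add, map_add, h1, h2]
    simp only [map_add, eval₂_add, mul_add]
    ring
  | mul_X p a hp =>
    obtain ⟨Q, h⟩ := hp
    have e : ps φ ϑ η i (X a) =
        Polynomial.C (ϑ a) + if a = i then Polynomial.X * Polynomial.C η else 0 :=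
      eval₂Hom_X' _ _ a
    rw [map_mul, map_mul, h, map_X, e, pderiv_mul]
    by_cases ha : a = i
    · subst ha
      refine ⟨Q * Polynomial.C (ϑ a) + (Polynomial.C (η * eval₂ φ ϑ (pderiv a p)) +
        Polynomial.X * Q) * Polynomial.C η, ?_⟩
      simp only [pderiv_X_self, if_true, eval₂_add, eval₂_mul, eval₂_X, mul_one, map_add, map_mul,
        mul_add]
      ring
    · refine ⟨Q * Polynomial.C (ϑ a), ?_⟩
      simp only [pderiv_X_of_ne ha, if_neg ha, eval₂_mul, eval₂_X, mul_zero, add_zero, map_mul]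
      ring

lemma kill (φ : k →+* A) {J : Ideal A} {m : ℕ} {ϑ : Fin 3 → A} {P0 : Fin 3 → k} {η : A} {c : k}
    (i : Fin 3) (hJ : J ^ m = ⊥) (h : ∀ a, ϑ a - φ (P0 a) ∈ J) (hη : η - φ c ∈ J)
    {F : MvPolynomial (Fin 3) (Polynomial k)} (hF : F ∈ mP (pt P0 c i) ^ m) :
    ps φ ϑ η i F = 0 := by
  have h1 : (mP (pt P0 c i)).map (ps φ ϑ η i) ≤ J.map Polynomial.C := by
    rw [mP, Ideal.map_span, Ideal.span_le]
    rintro _ ⟨_, ⟨a, rfl⟩, rfl⟩
    have e : ps φ ϑ η i (X a - C (pt P0 c i a)) = Polynomial.C (ϑ a - φ (P0 a)) +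
        (if a = i then Polynomial.X else 0) * Polynomial.C (η - φ c) := by
      by_cases ha : a = i <;> simp [ps, pt, ha] <;> ring
    rw [SetLike.mem_coe, e]
    exact Ideal.add_mem _ (Ideal.mem_map_of_mem _ (h a))
      (Ideal.mul_mem_left _ _ (Ideal.mem_map_of_mem _ hη))
  have h2 := Ideal.mem_map_of_mem (ps φ ϑ η i) hF
  rw [Ideal.map_pow] at h2
  have h3 := Ideal.pow_right_mono h1 m h2
  rwa [← Ideal.map_pow, hJ, Ideal.map_bot, Ideal.mem_bot] at h3

end ConeM

open ConeM in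
theorem cone : NStmt := by
  classical
  intro k _ G hG d F hF0 hF
  obtain ⟨N, hN⟩ := sum_cf F
  have hd : ∀ e, ∃ (j : ℕ) (H' : MvPolynomial (Fin 3) k), cf F e ≠ 0 →
      3 * j ≤ d ∧ H'.IsHomogeneous (d - 3 * j) ∧ ¬ G ∣ H' ∧ cf F e = G ^ j * H' := fun e => by
    by_cases h : cf F e = 0
    · exact ⟨0, 0, fun h' => absurd h h'⟩
    · obtain ⟨j, H', h1⟩ := dec hG d _ (cf_hom hF e) h
      exact ⟨j, H', fun _ => h1⟩
  choose j H hH using hd
  set E := (Finset.range N).filter fun e => cf F e ≠ 0 with hE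
  have hN' : F = ∑ e ∈ E, C (Polynomial.X ^ e) * map Polynomial.C (cf F e) := by
    rw [hE, Finset.sum_filter_of_ne]
    · exact hN
    · intro e _ h h'
      exact h (by rw [h']; simp)
  have hne : E.Nonempty := by
    by_contra hc
    rw [Finset.not_nonempty_iff_eq_empty.1 hc] at hN'
    exact hF0 hN'
  obtain ⟨e0, he0, hmin⟩ := E.exists_min_image (fun e => e + j e) hne
  refine ⟨(E.filter fun e => e + j e = e0 + j e0).image j, fun a => H (e0 + j e0 - a),
    ⟨j e0, Finset.mem_image_of_mem j (Finset.mem_filter.2 ⟨he0, rfl⟩)⟩, fun a ha => ?_, ?_⟩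
  · obtain ⟨e, he, rfl⟩ := Finset.mem_image.1 ha
    obtain ⟨h1, h2⟩ := Finset.mem_filter.1 he
    obtain ⟨h3, h4, h5, -⟩ := hH e (Finset.mem_filter.1 h1).2
    dsimp only
    rw [← h2, Nat.add_sub_cancel]
    exact ⟨h3, h4, h5⟩
  intro A _ φ J m ϑ P0 i w0 ω hJ hω hϑ hG0 hκ hFm
  have c1 := cong φ hϑ (pderiv i G)
  have nil : IsNilpotent (eval₂ φ ϑ (pderiv i G) - φ (eval P0 (pderiv i G))) :=
    ⟨m, by have := Ideal.pow_mem_pow c1 m; rwa [hJ, Ideal.mem_bot] at this⟩
  have un : IsUnit (eval₂ φ ϑ (pderiv i G)) := by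
    simpa using nil.isUnit_add_right_of_commute ((IsUnit.mk0 _ hκ).map φ) (Commute.all _ _)
  obtain ⟨v, hv⟩ := un.exists_left_inv
  have e1 : φ (w0 / eval P0 (pderiv i G)) * φ (eval P0 (pderiv i G)) = φ w0 := by
    rw [← map_mul, div_mul_cancel₀ _ hκ]
  have c2 : (φ w0 + ω) * v - φ (w0 / eval P0 (pderiv i G)) ∈ J := by
    have := J.mul_mem_left v (J.sub_mem hω (J.mul_mem_left (φ (w0 / eval P0 (pderiv i G))) c1))
    convert this using 1
    linear_combination (-v) * e1 + φ (w0 / eval P0 (pderiv i G)) * hv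
  have z := kill φ i hJ hϑ c2 hFm
  obtain ⟨Q, hQ⟩ := taylor φ ϑ ((φ w0 + ω) * v) i G
  rw [hG0, map_zero, zero_add, mul_assoc, hv, mul_one] at hQ
  have z2 := congrArg (fun p => Polynomial.coeff p (e0 + j e0)) z
  simp only [Polynomial.coeff_zero] at z2
  rw [hN', map_sum, Polynomial.finset_sum_coeff] at z2
  rw [Finset.sum_image, Finset.sum_filter]
  · refine Eq.trans (Finset.sum_congr rfl fun e he => ?_) z2
    dsimp only
    obtain ⟨Q', hQ'⟩ := taylor φ ϑ ((φ w0 + ω) * v) i (H e)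
    have e2 : ps φ ϑ ((φ w0 + ω) * v) i (C (Polynomial.X ^ e)) = Polynomial.X ^ e := by simp [ps]
    rw [(hH e (Finset.mem_filter.1 he).2).2.2.2, map_mul, map_mul, map_mul, map_pow (map _),
      map_pow (ps _ _ _ _) (map _ G), e2, hQ, mul_pow, mul_assoc, ← mul_assoc, ← pow_add,
      Polynomial.coeff_X_pow_mul']
    by_cases h : e + j e = e0 + j e0
    · rw [if_pos h, if_pos h.le, h, Nat.sub_self, ← h, Nat.add_sub_cancel, hQ',
        Polynomial.coeff_zero_eq_eval_zero]
      simp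
    · rw [if_neg h, if_neg fun h' => h (le_antisymm h' (hmin e he))]
  · intro a ha b hb hab
    have h1 := (Finset.mem_filter.1 ha).2
    have h2 := (Finset.mem_filter.1 hb).2
    omega

end Vale.Agent.P279
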