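import Vale.Agent.P279.Spec

namespace Vale.Agent.P279

open MvPolynomial

namespace Co

/-- Series all of whose coefficients lie in `I`. -/
def JJ {B : Type} [CommRing B] (I : Ideal B) : Ideal (HahnSeries ℤ B) where
  carrier := {x | ∀ n, x.coeff n ∈ I}
  add_mem' := fun {a b} ha hb n => by
    rw [HahnSeries.coeff_add]; exact I.add_mem (ha n) (hb n)
  zero_mem' := fun n => by simp
  smul_mem' := fun c x hx n => by
    rw [smul_eq_mul, HahnSeries.coeff_mul]
    exact I.sum_mem fun ij _ => I.mul_mem_left _ (hx _)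

theorem mem_JJ {B : Type} [CommRing B] {I : Ideal B} {x : HahnSeries ℤ B} :
    x ∈ JJ I ↔ ∀ n, x.coeff n ∈ I := Iff.rfl

theorem JJ_pow {B : Type} [CommRing B] (I : Ideal B) (m : ℕ) : JJ I ^ m ≤ JJ (I ^ m) := by
  induction m with
  | zero => intro x _ n; simp
  | succ m ih =>
    rw [pow_succ, Ideal.mul_le]
    intro x hx y hy n
    rw [HahnSeries.coeff_mul, pow_succ]
    exact Ideal.sum_mem _ fun ij _ => Ideal.mul_mem_mul (ih hx _) (hy _)

theorem JJ_nil {B : Type} [CommRing B] (I : Ideal B) (m : ℕ) (h : I ^ m = ⊥) : JJ I ^ m = ⊥ := by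
  rw [eq_bot_iff]
  intro x hx
  have := JJ_pow I m hx
  rw [h] at this
  rw [Ideal.mem_bot]
  ext n
  simpa using this n

/-- The maximal ideal of the jet ring. -/
noncomputable def J0 (m : ℕ) : Ideal (Jt m) := (idealOfVars (Fin 2) ℂ).map (jq m)

theorem J0_pow (m : ℕ) : J0 m ^ m = ⊥ := by
  rw [J0, ← Ideal.map_pow, jq, Ideal.map_quotient_self]

theorem X_mem (m : ℕ) (i : Fin 2) : jq m (X i) ∈ J0 m :=
  Ideal.mem_map_of_mem _ (Ideal.subset_span ⟨i, rfl⟩)

theorem unitU (m : ℕ) (c : ℂ) (hc : c ≠ 0) : IsUnit (jq m (C c + X 0)) := by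
  have h1 : IsNilpotent (jq m (X 0)) := by
    refine ⟨m, ?_⟩
    have := Ideal.pow_mem_pow (X_mem m 0) m
    rwa [J0_pow, Ideal.mem_bot] at this
  rw [map_add]
  refine h1.isUnit_add_left_of_commute ?_ (Commute.all _ _)
  exact ((Ne.isUnit hc).map (C : ℂ →+* MvPolynomial (Fin 2) ℂ)).map (jq m)

/-- Evaluation at `u = c`. -/
noncomputable def evc (c : ℂ) (hc : c ≠ 0) : L →+* ℂ :=
  LaurentPolynomial.eval₂ (RingHom.id ℂ) (Units.mk0 c hc)

/-- Taylor expansion at `u = c`. -/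
noncomputable def eps (m : ℕ) (c : ℂ) (hc : c ≠ 0) : L →+* Jt m :=
  LaurentPolynomial.eval₂ ((jq m).comp C) (unitU m c hc).unit

theorem eps_isEps (m : ℕ) (c : ℂ) (hc : c ≠ 0) : IsEps m c (eps m c hc) := by
  refine ⟨fun a => by simp [eps], ?_⟩
  rw [eps, LaurentPolynomial.eval₂_T]
  simp

theorem eps_sub (m : ℕ) (c : ℂ) (hc : c ≠ 0) (x : L) :
    eps m c hc x - jq m (C (evc c hc x)) ∈ J0 m := by
  rw [← Ideal.Quotient.eq]
  induction x using LaurentPolynomial.induction_on' with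
  | add p q hp hq => simp only [map_add, hp, hq]
  | C_mul_T n a =>
    have hu : Units.map (Ideal.Quotient.mk (J0 m)).toMonoidHom (unitU m c hc).unit =
        Units.map (((Ideal.Quotient.mk (J0 m)).comp ((jq m).comp C)) : ℂ →+* _).toMonoidHom
          (Units.mk0 c hc) := by
      ext
      simp only [Units.coe_map, IsUnit.unit_spec, RingHom.toMonoidHom_eq_coe, MonoidHom.coe_coe,
        Units.val_mk0, RingHom.comp_apply, map_add]
      rw [Ideal.Quotient.eq_zero_iff_mem.2 (X_mem m 0), add_zero]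
    have h2 := congrArg (fun u => (u ^ n).val) hu
    simp only [← map_zpow, Units.coe_map, RingHom.toMonoidHom_eq_coe, MonoidHom.coe_coe,
      RingHom.comp_apply] at h2
    rw [eps, evc, LaurentPolynomial.eval₂_C_mul_T, LaurentPolynomial.eval₂_C_mul_T, map_mul, h2]
    simp only [RingHom.comp_apply, RingHom.id_apply, map_mul]

theorem bad_fin (x : L) (hx : x ≠ 0) :
    ∃ B : Set ℂ, B.Finite ∧ ∀ c (hc : c ≠ 0), c ∉ B → evc c hc x ≠ 0 := by
  obtain ⟨N, p, hp⟩ := LaurentPolynomial.exists_T_pow x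
  have hp0 : p ≠ 0 := by
    rintro rfl
    rw [map_zero] at hp
    exact hx ((LaurentPolynomial.isUnit_T (N : ℤ)).mul_left_eq_zero.1 hp.symm)
  refine ⟨{c | p.IsRoot c}, Polynomial.finite_setOfPred_isRoot hp0, fun c hc hB h0 => hB ?_⟩
  have := congrArg (evc c hc) hp
  rw [map_mul, h0, zero_mul, evc, LaurentPolynomial.eval₂_toLaurent] at this
  simpa [Polynomial.IsRoot, Polynomial.eval₂_id] using this

theorem hm_comp {A B D : Type} [CommRing A] [CommRing B] [CommRing D] (f : A →+* B) (g : B →+* D)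
    (x : HahnSeries ℤ A) : hm g (hm f x) = hm (g.comp f) x := by
  ext n; simp

theorem hm_ev {B : Type} [CommRing B] (θ : ℤ → Fin 3 → R) (β : ℤ) (g : L →+* B)
    (H : MvPolynomial (Fin 3) K) :
    hm g (ev θ β H) = eval₂ (hm (g.comp LaurentPolynomial.C)) (fun a => hm g (θ β a)) H := by
  rw [ev, coe_eval₂Hom, eval₂_comp_left]
  congr 1

theorem ev_evc (θ : ℤ → Fin 3 → R) (β : ℤ) (c : ℂ) (hc : c ≠ 0) (H : MvPolynomial (Fin 3) K) :
    eval (fun a => hm (evc c hc) (θ β a)) H = hm (evc c hc) (ev θ β H) := by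
  rw [hm_ev]
  have : hm ((evc c hc).comp LaurentPolynomial.C) = RingHom.id K := by
    ext x n
    simp [evc]
  rw [this, eval₂_id]

/-- The point of the plane over `K[y]` attached to `(β, c, w0)`. -/
noncomputable def PP (θ : ℤ → Fin 3 → R) (G : MvPolynomial (Fin 3) K) (i : Fin 3) (β : ℤ) (c : ℂ)
    (hc : c ≠ 0) (w0 : ℂ) : Fin 3 → Polynomial K :=
  pt (fun a => hm (evc c hc) (θ β a))
    (HahnSeries.C w0 / eval (fun a => hm (evc c hc) (θ β a)) (pderiv i G)) i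

theorem van_of (θ : ℤ → Fin 3 → R) (G : MvPolynomial (Fin 3) K) (i : Fin 3) (β : ℤ) (c : ℂ)
    (hc : c ≠ 0) (w0 : ℂ) (hG : ev θ β G = 0)
    (hκ : evc c hc (ev θ β (pderiv i G)).leadingCoeff ≠ 0)
    (F : MvPolynomial (Fin 3) (Polynomial K)) (S : Finset ℕ) (F' : ℕ → MvPolynomial (Fin 3) K)
    (m : ℕ)
    (h : ∀ (A : Type) [CommRing A] (φ : K →+* A) (J : Ideal A) (m : ℕ) (ϑ : Fin 3 → A)
        (P0 : Fin 3 → K) (i : Fin 3) (w0 : K) (ω : A),
        J ^ m = ⊥ → ω ∈ J → (∀ a, ϑ a - φ (P0 a) ∈ J) → eval₂ φ ϑ G = 0 →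
        eval P0 (pderiv i G) ≠ 0 →
        F ∈ mP (pt P0 (w0 / eval P0 (pderiv i G)) i) ^ m →
        ∑ j ∈ S, (φ w0 + ω) ^ j * eval₂ φ ϑ (F' j) = 0)
    (hF : F ∈ mP (PP θ G i β c hc w0) ^ m) (n : ℤ) :
    Van m c w0 S (fun j => (ev θ β (F' j)).coeff n) := by
  have hφ : (eps m c hc).comp LaurentPolynomial.C = (jq m).comp C := by
    ext a : 1
    simp [eps]
  have key := h (HahnSeries ℤ (Jt m)) (hm ((jq m).comp C)) (JJ (J0 m)) m
    (fun a => hm (eps m c hc) (θ β a)) (fun a => hm (evc c hc) (θ β a)) i (HahnSeries.C w0)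
    (HahnSeries.C (jq m (X 1))) (JJ_nil _ _ (J0_pow m)) ?_ ?_ ?_ ?_ hF
  · refine ⟨eps m c hc, eps_isEps m c hc, ?_⟩
    have h1 : hm ((jq m).comp C) (HahnSeries.C w0) + HahnSeries.C (jq m (X 1)) =
        HahnSeries.C (jq m (C w0 + X 1)) := by
      ext k
      simp only [HahnSeries.coeff_add, hm_coeff, HahnSeries.C_apply, HahnSeries.coeff_single]
      split_ifs <;> simp
    rw [h1] at key
    have h2 := congrArg (fun x => HahnSeries.coeff x n) key
    simp only [HahnSeries.coeff_sum, HahnSeries.coeff_zero] at h2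
    rw [← h2]
    refine Finset.sum_congr rfl fun j _ => ?_
    rw [← hφ, ← hm_ev, ← map_pow HahnSeries.C, HahnSeries.C_apply,
      HahnSeries.coeff_single_zero_mul, hm_coeff]
  · intro k
    rw [HahnSeries.C_apply, HahnSeries.coeff_single]
    split_ifs
    · exact X_mem m 1
    · exact zero_mem _
  · intro a k
    rw [HahnSeries.coeff_sub, hm_coeff, hm_coeff, hm_coeff]
    exact eps_sub m c hc _
  · rw [← hφ, ← hm_ev, hG, map_zero]
  · rw [ev_evc]
    intro h0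
    apply hκ
    rw [HahnSeries.leadingCoeff_eq, ← hm_coeff, h0, HahnSeries.coeff_zero]

/-- Window for the dominant exponents. -/
theorem window {M : ℤ} {θ : ℤ → Fin 3 → R} (hR : RecP M θ) (β : ℤ) (H : MvPolynomial (Fin 3) K)
    (e : ℕ) (hH : H.IsHomogeneous e) (ν k : ℤ) (hν : ∀ n < ν, (ev θ β H).coeff n = 0)
    (hk : ((ev θ β H).coeff ν).coeff k ≠ 0) :
    0 ≤ 6 * M * k + (3 * β + 9 * M) * e ∧ 6 * M * (k - 3 * e) + (3 * β + 9 * M) * e ≤ 0 := by
  have hk' : ar (ev θ β H) ν k ≠ 0 := hk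
  constructor
  · by_contra hlt
    rw [← hR β H e hH ν k, ar, hν _ (by omega)] at hk'
    exact hk' (by simp)
  · by_contra hlt
    have := hR β H e hH (ν - 6 * M * (k - 3 * e) - (3 * β + 9 * M) * e) (k - 3 * e)
    rw [show ν - 6 * M * (k - 3 * e) - (3 * β + 9 * M) * e + 6 * M * (k - 3 * e) +
      (3 * β + 9 * M) * e = ν by ring, show k - 3 * (e : ℤ) + 3 * e = k by ring] at this
    rw [this, ar, hν _ (by omega)] at hk'
    exact hk' (by simp)

theorem concave {θ : ℤ → Fin 3 → R} (hS : ShiftP θ) (β : ℤ) (H : MvPolynomial (Fin 3) K)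
    (ν k ν' k' : ℤ) (hν : ∀ n < ν, (ev θ β H).coeff n = 0)
    (hk : ((ev θ β H).coeff ν).coeff k ≠ 0) (hν' : ∀ n < ν', (ev θ (β - 1) H).coeff n = 0)
    (hk' : ((ev θ (β - 1) H).coeff ν').coeff k' ≠ 0) : k ≤ k' := by
  have h1 := hS (β - 1) 1 H ν' k'
  have h2 := hS (β - 1) 1 H (ν - k) k
  rw [show β - 1 + 1 = β by ring] at h1 h2
  rw [show ν - k + 1 * k = ν by ring] at h2
  have a1 : ν ≤ ν' + 1 * k' := by
    by_contra hlt
    have : ar (ev θ (β - 1) H) ν' k' ≠ 0 := hk'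
    rw [← h1, ar, hν _ (by omega)] at this
    exact this (by simp)
  have a2 : ν' ≤ ν - k := by
    by_contra hlt
    have : ar (ev θ β H) ν k ≠ 0 := hk
    rw [h2, ar, hν' _ (by omega)] at this
    exact this (by simp)
  omega

theorem ar1 (d e x : ℤ) (he : e ≤ d) (h : -e ≤ (d + 1) * x) (hd : 0 ≤ d) : 0 ≤ x := by
  by_contra hx
  nlinarith

theorem ar2 (d e x : ℤ) (he : 0 ≤ e) (h : 2 * ((d + 1) * x) ≤ -e) (hd : 0 ≤ d) :
    x ≤ 0 ∧ (0 < e → x < 0) := by
  refine ⟨?_, fun h0 => ?_⟩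
  · by_contra hx
    nlinarith
  · by_contra hx
    nlinarith

end Co

open Co

theorem core (hT : TStmt) (hG : GStmt) (hN : NStmt) (hK : KStmt) (hW : WStmt) : CoreStmt := by
  intro r d m hr hm1 hd hdr
  obtain ⟨n, rfl⟩ : ∃ n, r = 9 + n := ⟨r - 9, by omega⟩
  have hn : 1 ≤ n := by omega
  have hM : (0 : ℤ) < m * (d + 1) := by positivity
  obtain ⟨θ, h1, hS, hR⟩ := hT _ hM
  obtain ⟨G, hG3, hG0, hGd, i, hi⟩ := hG _ θ hM h1 hS hR
  set β : ℤ := 2 - 2 * (d + 1) * (d - 3 * m) - 3 * (m * (d + 1)) with hβ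
  obtain ⟨B0, hB0, hb0⟩ := bad_fin _ (HahnSeries.leadingCoeff_ne_zero.2 (hi β))
  obtain ⟨B1, hB1, hb1⟩ := bad_fin _ (HahnSeries.leadingCoeff_ne_zero.2 (hi (β - 1)))
  have hζ := Complex.isPrimitiveRoot_exp n (by omega)
  set ζ := Complex.exp (2 * Real.pi * Complex.I / n) with hζd
  have hζ0 : ζ ≠ 0 := Complex.exp_ne_zero _
  obtain ⟨c, hcB⟩ : ∃ c : ℂ, c ∉ ({0} : Set ℂ) ∪ ⋃ a ∈ Finset.range n, (fun z => z / ζ ^ a) '' B0 :=
    ((Set.finite_singleton _).union
      ((Finset.range n).finite_toSet.biUnion fun a _ => hB0.image _)).infinite_compl.nonempty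
  have hc : c ≠ 0 := fun h => hcB (Or.inl h)
  have hca : ∀ a : ℕ, c * ζ ^ a ≠ 0 := fun a => mul_ne_zero hc (pow_ne_zero _ hζ0)
  have hcb : ∀ a < n, c * ζ ^ a ∉ B0 := fun a ha hb => hcB (Or.inr (by
    simp only [Set.mem_iUnion]
    exact ⟨a, Finset.mem_range.2 ha, _, hb, by simp [pow_ne_zero _ hζ0]⟩))
  have hinf := ((Set.finite_singleton (0 : ℂ)).union hB1).infinite_compl
  set x : Fin 9 → ℂ := fun a => (hinf.natEmbedding _ a).1 with hx
  have hxi : Function.Injective x := fun a b h =>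
    Fin.ext ((hinf.natEmbedding _).injective (Subtype.ext h))
  have hx0 : ∀ a, x a ≠ 0 := fun a h => (hinf.natEmbedding _ a).2 (Or.inl h)
  have hxB : ∀ a, x a ∉ B1 := fun a h => (hinf.natEmbedding _ a).2 (Or.inr h)
  refine ⟨Fin.addCases (fun a => PP θ G i (β - 1) (x a) (hx0 a) 0)
    (fun a => PP θ G i β (c * ζ ^ (a : ℕ)) (hca a) 1), fun F hF hFP => ?_⟩
  by_contra hF0
  obtain ⟨S, F', hSne, hF', hcone⟩ := hN K G hG3 d F hF0 hF
  have hne : ∀ b, ∀ j ∈ S, ev θ b (F' j) ≠ 0 := fun b j hj h =>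
    (hF' j hj).2.2 (hGd b _ _ (hF' j hj).2.1 h)
  obtain ⟨j0, hj0, hmin⟩ := S.exists_min_image (fun j => (ev θ β (F' j)).order) hSne
  set ν := (ev θ β (F' j0)).order with hν
  have hlow : ∀ j ∈ S, ∀ n < ν, (ev θ β (F' j)).coeff n = 0 := fun j hj n hn =>
    HahnSeries.coeff_eq_zero_of_lt_order (lt_of_lt_of_le hn (hmin j hj))
  have hz := hK m d n hm1 hd hn (by rw [add_comm n 9]; exact hdr) c ζ hc hζ S
    (fun j => (ev θ β (F' j)).coeff ν) (fun a ha => ?_) (fun j hj k hk => ?_) j0 hj0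
  · exact HahnSeries.coeff_order_eq_zero.not.2 (hne β j0 hj0) hz
  · refine van_of θ G i β _ (hca a) 1 (hG0 β) (hb0 _ _ (hcb a ha)) F S F' m hcone ?_ ν
    have := hFP (Fin.natAdd 9 ⟨a, ha⟩)
    simpa only [Fin.addCases_right] using this
  · obtain ⟨h3, hh, -⟩ := hF' j hj
    have hw := window hR β _ _ hh ν k (hlow j hj) hk
    have he : ((d - 3 * j : ℕ) : ℤ) = d - 3 * j := by omega
    rw [he, hβ] at hw
    have h3' : (3 : ℤ) * j ≤ d := by exact_mod_cast h3
    have hj0' : (0 : ℤ) ≤ j := by positivity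
    have hd0 : (0 : ℤ) ≤ d := by positivity
    have a1 := ar1 d (d - 3 * j) (m * k - (d - 3 * j) * (d - 3 * m)) (by omega)
      (by nlinarith [hw.1]) hd0
    have a2 := ar2 d (d - 3 * j) (m * k - (d - 3 * j) * d) (by omega)
      (by nlinarith [hw.2]) hd0
    refine ⟨h3', by omega, fun hjm => ?_, by omega, fun h => by have := a2.2 (by omega); omega⟩
    have hjm' : j < m := by exact_mod_cast hjm
    set ν' := (ev θ (β - 1) (F' j)).order with hν'
    have hlow' : ∀ n < ν', (ev θ (β - 1) (F' j)).coeff n = 0 := fun n hn =>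
      HahnSeries.coeff_eq_zero_of_lt_order hn
    obtain ⟨k1, k2, hk1, hk2, hk12⟩ := hW m x hxi hx0 S
      (fun j => (ev θ (β - 1) (F' j)).coeff ν') (fun a => by
        refine van_of θ G i (β - 1) _ (hx0 a) 0 (hG0 _) (hb1 _ _ (hxB a)) F S F' m hcone ?_ ν'
        have := hFP (Fin.castAdd n a)
        simpa only [Fin.addCases_left] using this) j hj hjm'
      (HahnSeries.coeff_order_eq_zero.not.2 (hne _ j hj))
    have hc1 := concave hS β _ ν k ν' k1 (hlow j hj) hk hlow' hk1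
    have hw2 := window hR (β - 1) _ _ hh ν' k2 hlow' hk2
    rw [he, hβ] at hw2
    have hd' : (3 : ℤ) * m < d := by exact_mod_cast hd
    have a3 := (ar2 d (d - 3 * j) (m * k2 - (d - 3 * j) * d) (by omega)
      (by nlinarith [hw2.2]) hd0).2 (by omega)
    have hm0 : (0 : ℤ) ≤ m := by positivity
    have : m * k ≤ m * (k2 - 9 * ((m : ℤ) - j)) := mul_le_mul_of_nonneg_left (by omega) hm0
    nlinarith

end Vale.Agent.P279
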