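import Vale.Agent.P279.Spec

namespace Vale.Agent.P279

open MvPolynomial

namespace Cb

theorem ar_ext {f : R} (h : ∀ n k, ar f n k = 0) : f = 0 := by
  ext n k
  simpa [ar] using h n k

theorem ar_zero (n k : ℤ) : ar 0 n k = 0 := by simp [ar]

theorem ar_sum {ι : Type} (s : Finset ι) (f : ι → R) (n k : ℤ) :
    ar (∑ i ∈ s, f i) n k = ∑ i ∈ s, ar (f i) n k := by
  classical
  induction s using Finset.induction_on with
  | empty => simp [ar]
  | insert a s ha ih =>
    rw [Finset.sum_insert ha, Finset.sum_insert ha, ← ih]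
    simp [ar]

theorem ar_mul_ne {f g : R} {n k : ℤ} (h : ar (f * g) n k ≠ 0) :
    ∃ n1 k1 n2 k2 : ℤ, n1 + n2 = n ∧ k1 + k2 = k ∧ ar f n1 k1 ≠ 0 ∧ ar g n2 k2 ≠ 0 := by
  classical
  unfold ar at h
  rw [HahnSeries.coeff_mul, AddMonoidAlgebra.coeff_sum, Finsupp.finsetSum_apply] at h
  obtain ⟨ij, hij, h2⟩ := Finset.exists_ne_zero_of_sum_ne_zero h
  have h3 := AddMonoidAlgebra.support_coeff_mul_subset (f.coeff ij.1) (g.coeff ij.2)
    (Finsupp.mem_support_iff.2 h2)
  obtain ⟨k1, hk1, k2, hk2, hk⟩ := Finset.mem_add.1 h3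
  exact ⟨ij.1, k1, ij.2, k2, (Finset.mem_antidiagonal.1 hij).2.2, hk,
    Finsupp.mem_support_iff.1 hk1, Finsupp.mem_support_iff.1 hk2⟩

/-- `f` has least order `o`, leading coefficient a multiple of `u^κ`, and all its exponents
of `u` are congruent to `κ` mod `3`. -/
def Ld (f : R) (o κ : ℤ) : Prop :=
  (∀ n k, ar f n k ≠ 0 → o ≤ n ∧ k % 3 = κ % 3 ∧ (n = o → k = κ)) ∧ ar f o κ ≠ 0

theorem Ld.coeff_eq {f : R} {o κ : ℤ} (h : Ld f o κ) :
    f.coeff o = AddMonoidAlgebra.single κ (ar f o κ) := by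
  apply LaurentPolynomial.ext
  intro a
  rw [AddMonoidAlgebra.coeff_single, Finsupp.single_apply]
  split_ifs with ha
  · rw [← ha]; rfl
  · by_contra hne
    exact ha ((h.1 o a hne).2.2 rfl).symm

theorem Ld.order_eq {f : R} {o κ : ℤ} (h : Ld f o κ) : f.order = o := by
  have h0 : f.coeff o ≠ 0 := by
    intro h1
    apply h.2
    simp [ar, h1]
  have hf : f ≠ 0 := by
    rintro rfl
    simp at h0
  apply le_antisymm (HahnSeries.order_le_of_coeff_ne_zero h0)
  have h1 : f.coeff f.order ≠ 0 := HahnSeries.coeff_order_eq_zero.not.2 hf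
  obtain ⟨k, hk⟩ : ∃ k, (f.coeff f.order).coeff k ≠ 0 := by
    by_contra hc
    push Not at hc
    exact h1 (LaurentPolynomial.ext fun a => by simpa using hc a)
  exact (h.1 _ k hk).1

theorem Ld.mul {f g : R} {o κ o' κ' : ℤ} (h : Ld f o κ) (h' : Ld g o' κ') :
    Ld (f * g) (o + o') (κ + κ') := by
  constructor
  · intro n k hnk
    obtain ⟨n1, k1, n2, k2, hn, hk, h1, h2⟩ := ar_mul_ne hnk
    obtain ⟨a1, a2, a3⟩ := h.1 _ _ h1
    obtain ⟨b1, b2, b3⟩ := h'.1 _ _ h2
    refine ⟨by omega, by omega, fun hh => ?_⟩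
    have := a3 (by omega)
    have := b3 (by omega)
    omega
  · have e := HahnSeries.coeff_mul_order_add_order f g
    rw [HahnSeries.leadingCoeff_eq, HahnSeries.leadingCoeff_eq, h.order_eq, h'.order_eq,
      h.coeff_eq, h'.coeff_eq, AddMonoidAlgebra.single_mul_single] at e
    have e2 : ar (f * g) (o + o') (κ + κ') = ar f o κ * ar g o' κ' := by
      conv_lhs => unfold ar
      rw [e, AddMonoidAlgebra.coeff_single, Finsupp.single_eq_same]
    rw [e2]
    exact mul_ne_zero h.2 h'.2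

theorem ar_C (c : K) (n k : ℤ) :
    ar (hm LaurentPolynomial.C c) n k = if k = 0 then c.coeff n else 0 := by
  simp [ar]

theorem ld_C {c : K} (hc : c ≠ 0) : Ld (hm LaurentPolynomial.C c) c.order 0 := by
  constructor
  · intro n k h
    rw [ar_C] at h
    split_ifs at h with hk
    · exact ⟨HahnSeries.order_le_of_coeff_ne_zero h, by rw [hk], fun _ => hk⟩
    · exact absurd rfl h
  · rw [ar_C, if_pos rfl]
    exact HahnSeries.coeff_order_eq_zero.not.2 hc

theorem ld_one : Ld 1 0 0 := by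
  have := ld_C (c := 1) one_ne_zero
  simpa using this

theorem Ld.pow {f : R} {o κ : ℤ} (h : Ld f o κ) (e : ℕ) : Ld (f ^ e) (e * o) (e * κ) := by
  induction e with
  | zero => simpa using ld_one
  | succ e ih =>
    have := ih.mul h
    rw [pow_succ]
    push_cast
    rw [add_mul, add_mul, one_mul, one_mul]
    exact this

/-- The weight of an exponent. -/
def wt (κ : Fin 3 → ℤ) (α : Fin 3 →₀ ℕ) : ℤ := α 0 * κ 0 + α 1 * κ 1 + α 2 * κ 2

theorem indep (x : Fin 3 → R) (o κ : Fin 3 → ℤ) (hx : ∀ i, Ld (x i) (o i) (κ i))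
    (F : MvPolynomial (Fin 3) K) (α1 : Fin 3 →₀ ℕ) (h1 : α1 ∈ F.support)
    (hinj : ∀ α ∈ F.support, ∀ α' ∈ F.support, wt κ α % 3 = wt κ α1 % 3 →
      wt κ α = wt κ α' → α = α') :
    eval₂Hom (hm LaurentPolynomial.C) x F ≠ 0 := by
  classical
  set τ : (Fin 3 →₀ ℕ) → R := fun α =>
    hm LaurentPolynomial.C (coeff α F) * ∏ i, x i ^ α i with hτ
  set ω : (Fin 3 →₀ ℕ) → ℤ := fun α => (coeff α F).order + wt o α with hω
  have hl : ∀ α ∈ F.support, Ld (τ α) (ω α) (wt κ α) := by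
    intro α hα
    have h2 := (ld_C (mem_support_iff.1 hα)).mul
      ((((hx 0).pow (α 0)).mul ((hx 1).pow (α 1))).mul ((hx 2).pow (α 2)))
    rw [zero_add] at h2
    simp only [hτ, hω, wt, Fin.prod_univ_three]
    exact h2
  obtain ⟨α0, hα0, hmin⟩ := Finset.exists_min_image
    (F.support.filter fun α => wt κ α % 3 = wt κ α1 % 3) ω ⟨α1, by simp [h1]⟩
  rw [Finset.mem_filter] at hα0
  intro h0
  have e : eval₂Hom (hm LaurentPolynomial.C) x F = ∑ α ∈ F.support, τ α := by
    rw [coe_eval₂Hom, eval₂_eq']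
  have e2 : ar (∑ α ∈ F.support, τ α) (ω α0) (wt κ α0) = ar (τ α0) (ω α0) (wt κ α0) := by
    rw [ar_sum]
    apply Finset.sum_eq_single_of_mem α0 hα0.1
    intro α hα hne
    by_contra hc
    obtain ⟨a1, a2, a3⟩ := (hl α hα).1 _ _ hc
    have a4 : wt κ α % 3 = wt κ α1 % 3 := by rw [← a2, hα0.2]
    have a5 := hmin α (Finset.mem_filter.2 ⟨hα, a4⟩)
    exact hne (hinj α hα α0 hα0.1 a4 (a3 (le_antisymm a5 a1)).symm)
  rw [← e, h0, ar_zero] at e2
  exact (hl α0 hα0.1).2 e2.symm

theorem ld_th {M : ℤ} {θ : ℤ → Fin 3 → R} (hM : 0 < M) (h : IsTh M θ) (a : ℤ) (i : Fin 3)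
    (k0 : ℤ) (hk : k0 % 3 = (i : ℕ)) (h1 : a - 1 ≤ k0) (h2 : k0 ≤ a + 1) :
    Ld (θ (-(2 * M * a)) i) (M * k0 ^ 2 + -(2 * M * a) * k0) k0 := by
  constructor
  · intro n k hnk
    rw [h] at hnk
    split_ifs at hnk with hc
    · obtain ⟨c1, c2⟩ := hc
      have key : k ≠ k0 → (k0 - a) ^ 2 < (k - a) ^ 2 := by
        intro hne
        have : k0 + 3 ≤ k ∨ k + 3 ≤ k0 := by omega
        rcases this with h3 | h3 <;> nlinarith
      have e : n - (M * k0 ^ 2 + -(2 * M * a) * k0) = M * ((k - a) ^ 2 - (k0 - a) ^ 2) := by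
        rw [c2]; ring
      refine ⟨?_, by rw [c1, hk], fun hn => ?_⟩
      · by_cases hkk : k = k0
        · rw [c2, hkk]
        · have := mul_pos hM (sub_pos.2 (key hkk))
          omega
      · by_contra hkk
        have := mul_pos hM (sub_pos.2 (key hkk))
        omega
    · exact absurd rfl hnk
  · rw [h, if_pos ⟨hk, rfl⟩]
    exact one_ne_zero

theorem shift {θ : ℤ → Fin 3 → R} (hS : ShiftP θ) {F : MvPolynomial (Fin 3) K} {β : ℤ}
    (h : ev θ β F = 0) (β' : ℤ) : ev θ β' F = 0 := by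
  apply ar_ext
  intro n k
  have := hS β' (β - β') F n k
  rw [show β' + (β - β') = β by ring, h, ar_zero] at this
  exact this.symm

theorem deg_le {F : MvPolynomial (Fin 3) K} {α : Fin 3 →₀ ℕ} (h : α ∈ F.support) :
    α 0 + α 1 + α 2 ≤ F.totalDegree := by
  have := le_totalDegree h
  rwa [Finsupp.sum_fintype _ _ (fun _ => rfl), Fin.sum_univ_three] at this

theorem fext {α α' : Fin 3 →₀ ℕ} (h0 : α 0 = α' 0) (h1 : α 1 = α' 1) (h2 : α 2 = α' 2) :
    α = α' := by
  ext i
  fin_cases i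
  exacts [h0, h1, h2]

theorem num1 {a b c a' b' c' : ℕ} (h : a + b + c ≤ 2) (h' : a' + b' + c' ≤ 2)
    (e1 : (b + 2 * c) % 3 = 2) (e2 : a * 3 + b * 4 + c * 2 = a' * 3 + b' * 4 + c' * 2) :
    a = a' ∧ b = b' ∧ c = c' := by
  have : a ≤ 2 := by omega
  have : b ≤ 2 := by omega
  have : c ≤ 2 := by omega
  interval_cases a <;> interval_cases b <;> interval_cases c <;> omega

theorem num2 {a b c a' b' c' : ℕ} (h : a + b + c ≤ 2) (h' : a' + b' + c' ≤ 2)
    (e1 : (b + 2 * c) % 3 ≠ 2) (e2 : a * 3 + b * 4 + c * 5 = a' * 3 + b' * 4 + c' * 5) :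
    a = a' ∧ b = b' ∧ c = c' := by
  have : a ≤ 2 := by omega
  have : b ≤ 2 := by omega
  have : c ≤ 2 := by omega
  interval_cases a <;> interval_cases b <;> interval_cases c <;> omega

theorem norel {M : ℤ} {θ : ℤ → Fin 3 → R} (hM : 0 < M) (h : IsTh M θ) (hS : ShiftP θ)
    {F : MvPolynomial (Fin 3) K} (hF : F ≠ 0) (hd : F.totalDegree ≤ 2) (β : ℤ) :
    ev θ β F ≠ 0 := by
  intro h0
  obtain ⟨α1, h1⟩ := support_nonempty.2 hF
  by_cases hc : (α1 1 + 2 * α1 2) % 3 = 2
  · refine indep (θ (-(2 * M * 3))) _ ![3, 4, 2] (fun i => ld_th hM h 3 i _ ?_ ?_ ?_) F α1 h1 ?_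
      (shift hS h0 _)
    · fin_cases i <;> simp
    · fin_cases i <;> simp
    · fin_cases i <;> simp
    · intro α hα α' hα' e1 e2
      have d1 := deg_le hα
      have d2 := deg_le hα'
      simp only [wt, Matrix.cons_val_zero, Matrix.cons_val_one, Matrix.cons_val] at e1 e2
      obtain ⟨r0, r1, r2⟩ := num1 (d1.trans hd) (d2.trans hd) (by omega) (by exact_mod_cast e2)
      exact fext r0 r1 r2
  · refine indep (θ (-(2 * M * 4))) _ ![3, 4, 5] (fun i => ld_th hM h 4 i _ ?_ ?_ ?_) F α1 h1 ?_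
      (shift hS h0 _)
    · fin_cases i <;> simp
    · fin_cases i <;> simp
    · fin_cases i <;> simp
    · intro α hα α' hα' e1 e2
      have d1 := deg_le hα
      have d2 := deg_le hα'
      simp only [wt, Matrix.cons_val_zero, Matrix.cons_val_one, Matrix.cons_val] at e1 e2
      obtain ⟨r0, r1, r2⟩ := num2 (d1.trans hd) (d2.trans hd) (by omega) (by exact_mod_cast e2)
      exact fext r0 r1 r2

theorem nox0 {M : ℤ} {θ : ℤ → Fin 3 → R} (hM : 0 < M) (h : IsTh M θ) (hS : ShiftP θ)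
    {F : MvPolynomial (Fin 3) K} (hF : F ≠ 0) (h0 : ∀ α ∈ F.support, α 0 = 0) (β : ℤ) :
    ev θ β F ≠ 0 := by
  intro hz
  obtain ⟨α1, h1⟩ := support_nonempty.2 hF
  set N : ℤ := (F.totalDegree : ℤ) with hN
  refine indep (θ (-(2 * M * (3 * N + 1)))) _ ![3 * N, 3 * N + 1, 3 * N + 2]
    (fun i => ld_th hM h (3 * N + 1) i _ ?_ ?_ ?_) F α1 h1 ?_ (shift hS hz _)
  · fin_cases i <;> simp
  · fin_cases i <;> simp
  · fin_cases i <;> simp <;> omega
  · intro α hα α' hα' _ e2
    have d1 := deg_le hα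
    have d2 := deg_le hα'
    have z1 := h0 α hα
    have z2 := h0 α' hα'
    simp only [wt, Matrix.cons_val_zero, Matrix.cons_val_one, Matrix.cons_val, z1, z2] at e2
    have e3 : (((α 1 : ℤ) + α 2) - (α' 1 + α' 2)) * (3 * N + 1) = (α' 2 : ℤ) - α 2 := by
      push_cast at e2
      linarith
    have e4 : ((α 1 : ℤ) + α 2) - (α' 1 + α' 2) = 0 := by
      by_contra hne
      have : 1 ≤ ((α 1 : ℤ) + α 2) - (α' 1 + α' 2) ∨ ((α 1 : ℤ) + α 2) - (α' 1 + α' 2) ≤ -1 := by
        omega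
      have b1 : (α 2 : ℤ) ≤ N := by omega
      have b2 : (α' 2 : ℤ) ≤ N := by omega
      have b3 : (0 : ℤ) ≤ α 2 := by omega
      have b4 : (0 : ℤ) ≤ α' 2 := by omega
      rcases this with h3 | h3 <;> nlinarith
    rw [e4, zero_mul] at e3
    apply fext <;> omega

/-- The column of `u^k`. -/
noncomputable def col (k : ℤ) (f : R) : K :=
  f.map (⟨fun p : L => p.coeff k, by simp⟩ : ZeroHom L ℂ)

theorem col_coeff (k : ℤ) (f : R) (n : ℤ) : (col k f).coeff n = ar f n k := rfl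

theorem col_C_mul (k : ℤ) (a : K) (f : R) :
    col k (hm LaurentPolynomial.C a * f) = a * col k f := by
  ext n
  have s1 : (hm (LaurentPolynomial.C (R := ℂ)) a).support ⊆ a.support := by
    intro j hj h0
    apply hj
    simp [h0]
  have s2 : (col k f).support ⊆ f.support := by
    intro j hj h0
    apply hj
    simp [col_coeff, ar, h0]
  rw [col_coeff, ar, HahnSeries.coeff_mul_left' a.isPWO_support s1,
    HahnSeries.coeff_mul_right' f.isPWO_support s2, AddMonoidAlgebra.coeff_sum,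
    Finsupp.finsetSum_apply]
  refine Finset.sum_congr rfl fun ij _ => ?_
  rw [hm_coeff, col_coeff, ar, ← LaurentPolynomial.smul_eq_C_mul]
  simp

/-- The ten exponents of degree three. -/
def ex : Fin 10 → Fin 3 → ℕ :=
  ![![3, 0, 0], ![0, 3, 0], ![0, 0, 3], ![2, 1, 0], ![2, 0, 1], ![1, 2, 0], ![0, 2, 1],
    ![1, 0, 2], ![0, 1, 2], ![1, 1, 1]]

theorem ex_inj : Function.Injective ex := by decide

theorem ex_sum : ∀ j, ∑ i, ex j i = 3 := by decide

theorem cubic {M : ℤ} {θ : ℤ → Fin 3 → R} (hR : RecP M θ) :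
    ∃ G : MvPolynomial (Fin 3) K, G ≠ 0 ∧ G.IsHomogeneous 3 ∧ ev θ 0 G = 0 := by
  classical
  set e : Fin 10 → (Fin 3 →₀ ℕ) := fun j => Finsupp.equivFunOnFinite.symm (ex j) with he
  have einj : Function.Injective e := Finsupp.equivFunOnFinite.symm.injective.comp ex_inj
  set v : Fin 10 → Fin 9 → K := fun j k => col (k : ℕ) (ev θ 0 (monomial (e j) 1)) with hv
  have hnl : ¬ LinearIndependent K v := by
    intro hl
    have := hl.fintype_card_le_finrank
    simp at this
  obtain ⟨g, hg, j0, hj0⟩ := Fintype.not_linearIndependent_iff.1 hnl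
  have hom : (∑ j, monomial (e j) (g j) : MvPolynomial (Fin 3) K).IsHomogeneous 3 := by
    apply IsHomogeneous.sum
    intro j _
    apply isHomogeneous_monomial
    rw [Finsupp.degree_eq_sum]
    exact ex_sum j
  refine ⟨∑ j, monomial (e j) (g j), ?_, hom, ?_⟩
  · intro h0
    have := congrArg (coeff (e j0)) h0
    rw [coeff_sum, Finset.sum_eq_single j0] at this
    · simp at this
      exact hj0 this
    · intro j _ hj
      rw [coeff_monomial, if_neg (fun hh => hj (einj hh))]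
    · simp
  · set G : MvPolynomial (Fin 3) K := ∑ j, monomial (e j) (g j) with hG
    have base : ∀ k : Fin 9, ∀ n, ar (ev θ 0 G) n (k : ℕ) = 0 := by
      intro k n
      have h1 := congrArg (fun w : Fin 9 → K => (w k).coeff n) hg
      simp only [Finset.sum_apply, Pi.smul_apply, smul_eq_mul, HahnSeries.coeff_sum,
        Pi.zero_apply, HahnSeries.coeff_zero] at h1
      rw [← h1, hG, map_sum, ar_sum]
      refine Finset.sum_congr rfl fun j _ => ?_
      rw [hv, ← col_C_mul, col_coeff]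
      congr 1
      rw [show (monomial (e j) (g j) : MvPolynomial (Fin 3) K) = C (g j) * monomial (e j) 1 by
        rw [C_mul_monomial, mul_one], map_mul]
      congr 1
      simp [ev]
    have step : ∀ k : ℤ, (∀ n, ar (ev θ 0 G) n k = 0) ↔ ∀ n, ar (ev θ 0 G) n (k + 9) = 0 := by
      intro k
      constructor
      · intro hk n
        have := hR 0 G 3 hom (n - 6 * M * k - (3 * 0 + 9 * M) * (3 : ℕ)) k
        rw [hk] at this
        rw [← this]
        congr 1
        ring
      · intro hk n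
        rw [← hR 0 G 3 hom n k]
        exact hk _
    have all : ∀ (q : ℤ) (r : Fin 9) (n : ℤ), ar (ev θ 0 G) n ((r : ℕ) + 9 * q) = 0 := by
      intro q r
      induction q using Int.induction_on with
      | zero => simpa using base r
      | succ q ih =>
        have := (step _).1 ih
        rwa [show ((r : ℕ) : ℤ) + 9 * q + 9 = (r : ℕ) + 9 * (q + 1) by ring] at this
      | pred q ih =>
        apply (step _).2
        rwa [show ((r : ℕ) : ℤ) + 9 * (-q - 1) + 9 = (r : ℕ) + 9 * (-q) by ring]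
    apply ar_ext
    intro n k
    have := all (k / 9) ⟨(k % 9).toNat, by omega⟩ n
    rwa [show (((⟨(k % 9).toNat, by omega⟩ : Fin 9) : ℕ) : ℤ) + 9 * (k / 9) = k by
      simp only []; omega] at this

theorem clear {A : Type} [CommRing A] [IsDomain A] (p : Polynomial (FractionRing A)) :
    ∃ b : A, b ≠ 0 ∧ ∃ q : Polynomial A, q.map (algebraMap A (FractionRing A)) =
      Polynomial.C (algebraMap A (FractionRing A) b) * p := by
  obtain ⟨b, hb, h⟩ := IsLocalization.integerNormalization_spec (nonZeroDivisors A) p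
  refine ⟨b, nonZeroDivisors.ne_zero hb, _, h.trans ?_⟩
  rw [← Polynomial.smul_eq_C_mul, algebraMap_smul]

theorem prin {A : Type} [CommRing A] [IsDomain A] (P : Ideal (Polynomial A))
    (hP : ∀ b : A, Polynomial.C b ∈ P → b = 0) {G F : Polynomial A} (hG : Prime G)
    (h1 : G ∈ P) (h2 : F ∈ P) : G ∣ F := by
  classical
  set φ := algebraMap A (FractionRing A) with hφ
  have inj : Function.Injective (Polynomial.map φ) :=
    Polynomial.map_injective φ (IsFractionRing.injective A _)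
  set d := EuclideanDomain.gcd (G.map φ) (F.map φ) with hd
  have e := EuclideanDomain.gcd_eq_gcd_ab (G.map φ) (F.map φ)
  obtain ⟨q1, hq1⟩ := EuclideanDomain.gcd_dvd_left (G.map φ) (F.map φ)
  obtain ⟨q2, hq2⟩ := EuclideanDomain.gcd_dvd_right (G.map φ) (F.map φ)
  rw [← hd] at e hq1 hq2
  obtain ⟨bu, hbu, u, hu⟩ := clear (EuclideanDomain.gcdA (G.map φ) (F.map φ))
  obtain ⟨bv, hbv, w, hw⟩ := clear (EuclideanDomain.gcdB (G.map φ) (F.map φ))
  obtain ⟨b1, hb1, r1, hr1⟩ := clear q1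
  obtain ⟨b2, hb2, r2, hr2⟩ := clear q2
  rw [← hφ] at hu hw hr1 hr2
  set D : Polynomial A := Polynomial.C bv * u * G + Polynomial.C bu * w * F with hD
  have hDP : D ∈ P := P.add_mem (P.mul_mem_left _ h1) (P.mul_mem_left _ h2)
  have hDm : D.map φ = Polynomial.C (φ bu) * Polynomial.C (φ bv) * d := by
    rw [hD, e]
    simp only [Polynomial.map_add, Polynomial.map_mul, Polynomial.map_C, hu, hw]
    ring
  have e1 : D * r1 = Polynomial.C (bu * bv * b1) * G := by
    apply inj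
    simp only [Polynomial.map_mul, Polynomial.map_C, hDm, hr1, map_mul]
    rw [hq1]
    ring
  have e2 : D * r2 = Polynomial.C (bu * bv * b2) * F := by
    apply inj
    simp only [Polynomial.map_mul, Polynomial.map_C, hDm, hr2, map_mul]
    rw [hq2]
    ring
  have h3 : G ∣ D * r1 := by rw [e1]; exact Dvd.intro_left _ rfl
  rcases hG.dvd_or_dvd h3 with h4 | ⟨r, hr⟩
  · have h5 : G ∣ Polynomial.C (bu * bv * b2) * F := by rw [← e2]; exact h4.mul_right _
    rcases hG.dvd_or_dvd h5 with ⟨r, hr⟩ | h6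
    · have := hP (bu * bv * b2) (by rw [hr]; exact P.mul_mem_right _ h1)
      exact absurd this (mul_ne_zero (mul_ne_zero hbu hbv) hb2)
    · exact h6
  · have h5 : Polynomial.C (bu * bv * b1) = D * r := by
      apply mul_right_cancel₀ hG.ne_zero
      rw [← e1, hr]
      ring
    have := hP (bu * bv * b1) (by rw [h5]; exact P.mul_mem_right _ hDP)
    exact absurd this (mul_ne_zero (mul_ne_zero hbu hbv) hb1)

theorem prin3 {k : Type} [Field k] (P : Ideal (MvPolynomial (Fin 3) k))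
    (hP : ∀ F ∈ P, (∀ α ∈ F.support, α 0 = 0) → F = 0) {G F : MvPolynomial (Fin 3) k}
    (hG : Prime G) (h1 : G ∈ P) (h2 : F ∈ P) : G ∣ F := by
  set ψ : MvPolynomial (Fin 3) k ≃ₐ[k] Polynomial (MvPolynomial (Fin 2) k) :=
    finSuccEquiv k 2 with hψ
  have h3 := prin (A := MvPolynomial (Fin 2) k) (P.comap ψ.symm) ?_
    (G := ψ G) (F := ψ F) ((MulEquiv.prime_iff ψ).2 hG) (by simpa using h1)
    (by simpa using h2)
  · exact (map_dvd_iff ψ).1 h3
  · intro b hb
    have hz := hP (ψ.symm (Polynomial.C b)) hb ?_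
    · simpa using hz
    · intro α hα
      by_contra h0
      have h2 := finSuccEquiv_coeff_coeff α.tail (ψ.symm (Polynomial.C b)) (α 0)
      rw [Finsupp.cons_tail, ← hψ, AlgEquiv.apply_symm_apply, Polynomial.coeff_C,
        if_neg h0, coeff_zero] at h2
      exact mem_support_iff.1 hα h2.symm

end Cb

open Cb

theorem cub : GStmt := by
  intro M θ hM hT hS hR
  obtain ⟨G, hG0, hG3, hGz⟩ := cubic hR
  have hpr : (RingHom.ker (ev θ 0)).IsPrime := RingHom.ker_isPrime _
  have hne : RingHom.ker (ev θ 0) ≠ ⊥ := by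
    intro hb
    have : G ∈ RingHom.ker (ev θ 0) := hGz
    rw [hb] at this
    exact hG0 this
  obtain ⟨G0, hG0m, hG0p⟩ := hpr.exists_mem_prime_of_ne_bot hne
  have hdiv : ∀ F, ev θ 0 F = 0 → G0 ∣ F := by
    intro F hF
    refine prin3 (RingHom.ker (ev θ 0)) (fun F hF h0 => ?_) hG0p hG0m hF
    by_contra hne
    exact nox0 hM hT hS hne h0 0 hF
  obtain ⟨H, hH⟩ := hdiv G hGz
  have hH0 : H ≠ 0 := by
    rintro rfl
    exact hG0 (by simpa using hH)
  have hd : G.totalDegree = G0.totalDegree + H.totalDegree := by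
    rw [hH, totalDegree_mul_of_isDomain hG0p.ne_zero hH0]
  have hd3 : G.totalDegree = 3 := hG3.totalDegree hG0
  have hd0 : ¬ G0.totalDegree ≤ 2 := fun hh => norel hM hT hS hG0p.ne_zero hh 0 hG0m
  have hHC : H = C (coeff 0 H) := totalDegree_eq_zero_iff_eq_C.1 (by omega)
  have hc0 : coeff 0 H ≠ 0 := by
    intro hh
    rw [hh, map_zero] at hHC
    exact hH0 hHC
  have hGG : G ∣ G0 := by
    refine ⟨C (coeff 0 H)⁻¹, ?_⟩
    rw [hH, mul_assoc]
    conv_rhs => rw [hHC]
    rw [coeff_zero_C, ← map_mul, mul_inv_cancel₀ hc0, map_one, mul_one]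
  refine ⟨G, hG3, fun β => shift hS hGz β,
    fun β F _ _ hF => hGG.trans (hdiv F (shift hS hF 0)), ?_⟩
  obtain ⟨i, hi⟩ : ∃ i, pderiv i G ≠ 0 := by
    by_contra hc
    push Not at hc
    have := hG3.sum_X_mul_pderiv
    simp only [hc, mul_zero, Finset.sum_const_zero] at this
    apply hG0
    refine MvPolynomial.ext _ _ fun α => ?_
    have h2 := congrArg (coeff α) this
    rw [coeff_zero, coeff_smul, nsmul_eq_mul] at h2
    have h3 : ((3 : ℕ) : K) ≠ 0 := by
      intro h4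
      rw [← map_natCast (HahnSeries.C : ℂ →+* K) 3, map_eq_zero] at h4
      norm_num at h4
    exact (mul_eq_zero.1 h2.symm).resolve_left h3
  refine ⟨i, fun β => norel hM hT hS hi ?_ β⟩
  exact (hG3.pderiv (i := i)).totalDegree_le

end Vale.Agent.P279
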