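import Mathlib

namespace Vale.Agent.P279

open MvPolynomial

/-- The complex projective plane. -/
abbrev P2 : Type := Projectivization ℂ (Fin 3 → ℂ)

/-- The iterated derivative of `F` along the list `l` of coordinate directions. -/
noncomputable def dd (l : List (Fin 3)) (F : MvPolynomial (Fin 3) ℂ) : MvPolynomial (Fin 3) ℂ :=
  l.foldr (fun i G => pderiv i G) F

/-- `F` has multiplicity at least `m` at `p`: all derivatives of order `< m` vanish at `p`. -/
def MultGe (F : MvPolynomial (Fin 3) ℂ) (p : P2) (m : ℕ) : Prop :=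
  ∀ l : List (Fin 3), l.length < m → eval p.rep (dd l F) = 0

/-- Zariski-closed subsets of `(P^2)^r`: the cone over the set, in homogeneous coordinates,
is the common zero set of a family of polynomials in the `3 r` coordinates. -/
def ZClosed {r : ℕ} (Z : Set (Fin r → P2)) : Prop :=
  ∃ S : Set (MvPolynomial (Fin r × Fin 3) ℂ),
    ∀ (v : Fin r → Fin 3 → ℂ) (hv : ∀ i, v i ≠ 0),
      (fun i => Projectivization.mk ℂ (v i) (hv i)) ∈ Z ↔
        ∀ D ∈ S, eval (fun x : Fin r × Fin 3 => v x.1 x.2) D = 0

end Vale.Agent.P279
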