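import Vale.Agent.P279.Spec

/-! Module A2: from generic emptiness to the statement for very general points. -/

namespace Vale.Agent.P279

open MvPolynomial

namespace Fn

/-- translation by `v` -/
noncomputable def tr (v : Fin 3 → ℂ) : MvPolynomial (Fin 3) ℂ →ₐ[ℂ] MvPolynomial (Fin 3) ℂ :=
  aeval fun i => X i + C (v i)

lemma pderiv_tr (v : Fin 3 → ℂ) (i : Fin 3) (F : MvPolynomial (Fin 3) ℂ) :
    pderiv i (tr v F) = tr v (pderiv i F) := by
  induction F using MvPolynomial.induction_on with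
  | C a => simp [tr]
  | add p q hp hq => simp only [map_add, hp, hq]
  | mul_X p j hp =>
    rw [map_mul, pderiv_mul, pderiv_mul, hp, map_add, map_mul, map_mul]
    by_cases h : j = i <;> simp [tr, h]

lemma coeff_tr (v : Fin 3 → ℂ) (n : ℕ) : ∀ (x : Fin 3 →₀ ℕ), x.degree = n →
    ∀ F : MvPolynomial (Fin 3) ℂ, (∀ l : List (Fin 3), l.length = n → eval v (dd l F) = 0) →
      coeff x (tr v F) = 0 := by
  induction n with
  | zero =>
    intro x hx F h
    rw [(Finsupp.degree_eq_zero_iff x).1 hx, ← h [] rfl, ← constantCoeff_eq]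
    exact RingHom.congr_fun (f := constantCoeff.comp (tr v).toRingHom) (g := eval v)
      (ringHom_ext (fun a => by simp [tr]) fun i => by simp [tr]) F
  | succ n ih =>
    intro x hx F h
    obtain ⟨i, hi⟩ : ∃ i, x i ≠ 0 := by
      by_contra hc
      push Not at hc
      rw [show x = 0 from Finsupp.ext hc] at hx
      simp at hx
    obtain ⟨y, rfl⟩ := le_iff_exists_add'.1
      (show Finsupp.single i 1 ≤ x from Finsupp.single_le_iff.2 (by omega))
    have h1 := ih y (by simpa using hx) (pderiv i F) fun l hl => by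
      have := h (l ++ [i]) (by simp [hl])
      rwa [dd, List.foldr_append] at this
    rw [← pderiv_tr, coeff_pderiv] at h1
    exact (mul_eq_zero.1 h1).resolve_right (Nat.cast_add_one_ne_zero _)

lemma mem_map {φ : MvPolynomial (Fin 3) ℂ →ₐ[ℂ] MvPolynomial (Fin 3) ℂ}
    {g : Fin 3 → MvPolynomial (Fin 3) ℂ} {J : Ideal (MvPolynomial (Fin 3) ℂ)} {m : ℕ}
    (h : ∀ i, φ (g i) ∈ J) {F : MvPolynomial (Fin 3) ℂ}
    (hF : F ∈ Ideal.span (Set.range g) ^ m) : φ F ∈ J ^ m := by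
  have h1 := Ideal.mem_map_of_mem φ hF
  rw [Ideal.map_pow] at h1
  refine Ideal.pow_right_mono ?_ m h1
  rw [Ideal.map_span, Ideal.span_le]
  rintro _ ⟨_, ⟨i, rfl⟩, rfl⟩
  exact h i

lemma mult_mem {F : MvPolynomial (Fin 3) ℂ} {p : P2} {m : ℕ} (h : MultGe F p m) :
    F ∈ mP p.rep ^ m := by
  have h1 : tr p.rep F ∈ idealOfVars (Fin 3) ℂ ^ m :=
    (mem_pow_idealOfVars_iff' m _).2 fun x hx => coeff_tr _ _ x rfl F fun l hl => h l (by omega)
  have h2 : (tr (-p.rep)).comp (tr p.rep) = AlgHom.id ℂ _ := algHom_ext fun i => by simp [tr]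
  have h3 := mem_map (φ := tr (-p.rep)) (J := mP p.rep)
    (fun i => Ideal.subset_span ⟨i, by simp [tr, sub_eq_add_neg]⟩) h1
  rwa [show tr (-p.rep) (tr p.rep F) = F from AlgHom.congr_fun h2 F] at h3

lemma scale_mem {F : MvPolynomial (Fin 3) ℂ} {d m : ℕ} (hF : F.IsHomogeneous d) {a : ℂ}
    (ha : a ≠ 0) {v : Fin 3 → ℂ} (h : F ∈ mP (a • v) ^ m) : F ∈ mP v ^ m := by
  have h1 := mem_map (φ := aeval fun i => C a * X i) (J := mP v) (fun i => by
    have := Ideal.mul_mem_left (mP v) (C a) (Ideal.subset_span ⟨i, rfl⟩ : X i - C (v i) ∈ mP v)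
    simpa [mul_sub] using this) h
  have h2 : aeval (fun i => C a * X i) F = C (a ^ d) * F := by
    conv_lhs => rw [F.as_sum]
    conv_rhs => rw [F.as_sum]
    rw [map_sum, Finset.mul_sum]
    refine Finset.sum_congr rfl fun x hx => ?_
    rw [aeval_monomial, monomial_eq, hF.degree_eq_sum_deg_support hx, Finsupp.prod, Finsupp.prod]
    simp only [mul_pow, Finset.prod_mul_distrib, Finset.prod_pow_eq_pow_sum, algebraMap_eq, map_pow]
    ring
  have h3 := Ideal.mul_mem_left _ (C (a ^ d)⁻¹) h1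
  rwa [h2, ← mul_assoc, ← map_mul, inv_mul_cancel₀ (pow_ne_zero _ ha), map_one, one_mul] at h3

variable {r : ℕ}

/-- polynomials vanishing on the cone over `B` -/
def Van' (B : Set (Fin r → P2)) : Set (MvPolynomial (Fin r × Fin 3) ℂ) :=
  {D | ∀ (v : Fin r → Fin 3 → ℂ) (hv : ∀ i, v i ≠ 0),
    (fun i => Projectivization.mk ℂ (v i) (hv i)) ∈ B →
      eval (fun x : Fin r × Fin 3 => v x.1 x.2) D = 0}

/-- the closure of `B` -/
def Cl (B : Set (Fin r → P2)) : Set (Fin r → P2) :=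
  {p | ∀ D ∈ Van' B, eval (fun x : Fin r × Fin 3 => (p x.1).rep x.2) D = 0}

lemma sub_Cl (B : Set (Fin r → P2)) : B ⊆ Cl B := fun p hp D hD =>
  hD (fun i => (p i).rep) (fun i => (p i).rep_nonzero) (by simpa using hp)

lemma resc {B : Set (Fin r → P2)} {w : Fin r → Fin 3 → ℂ}
    (h : ∀ D ∈ Van' B, eval (fun x : Fin r × Fin 3 => w x.1 x.2) D = 0) (a : Fin r → ℂˣ) :
    ∀ D ∈ Van' B, eval (fun x : Fin r × Fin 3 => (a x.1 • w x.1) x.2) D = 0 := by
  intro D hD
  have key : ∀ v : Fin r → Fin 3 → ℂ, eval (fun x : Fin r × Fin 3 => v x.1 x.2)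
      (bind₁ (fun x : Fin r × Fin 3 => C (a x.1 : ℂ) * X x) D) =
      eval (fun x : Fin r × Fin 3 => (a x.1 • v x.1) x.2) D := fun v => by
    rw [← coe_aeval_eq_eval, ← coe_aeval_eq_eval]
    simp only [RingHom.coe_coe, aeval_bind₁]
    simp [Units.smul_def]
  rw [← key]
  refine h _ fun v hv hB => ?_
  rw [key]
  have hv' : ∀ i, a i • v i ≠ 0 := fun i => smul_ne_zero (a i).ne_zero (hv i)
  refine hD (fun i => a i • v i) hv' ?_
  rwa [show (fun i => Projectivization.mk ℂ (a i • v i) (hv' i)) =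
    fun i => Projectivization.mk ℂ (v i) (hv i) from
      funext fun i => (Projectivization.mk_eq_mk_iff ℂ _ _ _ _).2 ⟨a i, rfl⟩]

lemma mk_mem {B : Set (Fin r → P2)} (v : Fin r → Fin 3 → ℂ) (hv : ∀ i, v i ≠ 0) :
    (fun i => Projectivization.mk ℂ (v i) (hv i)) ∈ Cl B ↔
      ∀ D ∈ Van' B, eval (fun x : Fin r × Fin 3 => v x.1 x.2) D = 0 := by
  choose a ha using fun i => Projectivization.exists_smul_eq_mk_rep ℂ (v i) (hv i)
  refine ⟨fun h => ?_, fun h D hD => ?_⟩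
  · have := resc (w := fun i => (Projectivization.mk ℂ (v i) (hv i)).rep) h fun i => (a i)⁻¹
    simpa only [← ha, inv_smul_smul] using this
  · simpa only [← ha] using resc h a D hD

lemma proper (hr : 2 ≤ r) {B : Set (Fin r → P2)} {D : MvPolynomial (Fin r × Fin 3) ℂ}
    (h0 : D ≠ 0) (hD : D ∈ Van' B) : ∃ p : Fin r → P2, Function.Injective p ∧ p ∉ Cl B := by
  have : Nontrivial (Fin r) := Fin.nontrivial_iff_two_le.2 hr
  have h1 : D * ∏ z ∈ Finset.univ.offDiag, (X (z.1, 0) * X (z.2, 1) - X (z.1, 1) * X (z.2, 0) :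
      MvPolynomial (Fin r × Fin 3) ℂ) ≠ 0 := by
    refine mul_ne_zero h0 (Finset.prod_ne_zero_iff.2 fun z hz e => ?_)
    have hz' := (Finset.mem_offDiag.1 hz).2.2
    have := congrArg (eval fun x => if x = (z.1, 0) ∨ x = (z.2, 1) then (1 : ℂ) else 0) e
    simp [hz', hz'.symm] at this
  obtain ⟨x, hx⟩ := not_forall.1 fun h => h1 (MvPolynomial.funext (q := 0) h)
  rw [map_zero, map_mul, mul_eq_zero, not_or, map_prod, ← ne_eq, ← ne_eq,
    Finset.prod_ne_zero_iff] at hx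
  have h2 : ∀ i j, i ≠ j → x (i, 0) * x (j, 1) - x (i, 1) * x (j, 0) ≠ 0 := fun i j hij => by
    simpa using hx.2 (i, j) (by simpa using hij)
  have hv : ∀ i, (fun a => x (i, a)) ≠ 0 := fun i e => by
    obtain ⟨j, hj⟩ := exists_ne i
    exact h2 i j hj.symm (by rw [congrFun e 0, congrFun e 1]; simp)
  refine ⟨fun i => Projectivization.mk ℂ (fun a => x (i, a)) (hv i), fun i j e => ?_,
    fun h => hx.1 ((mk_mem (fun i a => x (i, a)) hv).1 h D hD)⟩
  by_contra hij
  obtain ⟨a, ha⟩ := (Projectivization.mk_eq_mk_iff' ℂ _ _ _ _).1 e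
  refine h2 i j hij ?_
  rw [← congrFun ha 0, ← congrFun ha 1]
  simp only [Pi.smul_apply, smul_eq_mul]
  ring

/-- tuples carrying a curve which violates the bound -/
def Bad (d : ℕ) (m : Fin r → ℕ) : Set (Fin r → P2) :=
  {p | 1 ≤ d ∧ r * d ^ 2 ≤ (∑ i, m i) ^ 2 ∧ ∃ F : MvPolynomial (Fin 3) ℂ, F ≠ 0 ∧
    F.IsHomogeneous d ∧ ∀ i, F ∈ mP (p i).rep ^ m i}

end Fn

open Fn in
theorem fin (h : GenStmt) : FinalStmt := by
  intro r hr
  obtain ⟨f, hf⟩ := exists_surjective_nat (ℕ × (Fin r → ℕ))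
  refine ⟨fun n => Cl (Bad (f n).1 (f n).2), fun n => ⟨⟨_, mk_mem⟩, ?_⟩, ?_⟩
  · beta_reduce
    generalize f n = z
    obtain ⟨d, m⟩ := z
    by_cases hc : 1 ≤ d ∧ r * d ^ 2 ≤ (∑ i, m i) ^ 2
    · obtain ⟨D, h0, hD⟩ := h r d m hr hc.1 hc.2
      refine proper (by omega) h0 fun v hv ⟨_, _, F, F0, F1, F2⟩ => ?_
      by_contra hne
      refine F0 (hD v hne F F1 fun i => ?_)
      obtain ⟨a, ha⟩ := Projectivization.exists_smul_eq_mk_rep ℂ (v i) (hv i)
      have := F2 i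
      rw [← ha] at this
      exact scale_mem F1 a.ne_zero this
    · exact proper (by omega) one_ne_zero fun v hv hB => absurd ⟨hB.1, hB.2.1⟩ hc
  · intro p _ hp d hd F F0 F1 m hm
    obtain ⟨n, hn⟩ := hf (d, m)
    by_contra hc
    refine hp n (sub_Cl _ ?_)
    rw [hn]
    refine ⟨hd, ?_, F, F0, F1, fun i => mult_mem (hm i)⟩
    have h1 := pow_le_pow_left₀ (by positivity) (not_lt.1 hc) 2
    rw [mul_pow, Real.sq_sqrt (by positivity), mul_comm] at h1
    exact_mod_cast h1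

end Vale.Agent.P279
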