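import Vale.Agent.P279.Spec

/-! P279, module A1: from one special configuration to generic emptiness. -/

namespace Vale.Agent.P279

open MvPolynomial

namespace Gen

/-- over a field, a matrix with trivial kernel has an invertible square row selection -/
lemma rowsel {L ρ κ : Type} [Field L] [Fintype κ] [DecidableEq κ] (A : ρ → κ → L)
    (h : ∀ v : κ → L, (∀ x, ∑ a, A x a * v a = 0) → v = 0) :
    ∃ σ : κ → ρ, (Matrix.of fun a b => A (σ a) b).det ≠ 0 := by
  have htop : Submodule.span L (Set.range A) = ⊤ := by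
    by_contra hne
    obtain ⟨f, hf, hle⟩ := Submodule.exists_le_ker_of_lt_top _ (lt_top_iff_ne_top.2 hne)
    have hrep : ∀ u : κ → L, f u = ∑ a, u a * f (Pi.single a 1) := by
      intro u
      conv_lhs => rw [← Finset.univ_sum_single u, map_sum]
      refine Finset.sum_congr rfl (fun a _ => ?_)
      rw [← smul_eq_mul, ← map_smul, ← Pi.single_smul, smul_eq_mul, mul_one]
    have hv := h (fun a => f (Pi.single a 1)) (fun x => by
      rw [← hrep]
      exact hle (Submodule.subset_span ⟨x, rfl⟩))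
    refine hf (LinearMap.ext fun u => ?_)
    rw [hrep]
    exact Finset.sum_eq_zero (fun a _ => by rw [congrFun hv a, Pi.zero_apply, mul_zero])
  obtain ⟨κ', a, -, hsp, hli⟩ := exists_linearIndependent' L A
  have : Finite κ' := hli.finite
  let _ : Fintype κ' := Fintype.ofFinite κ'
  have hc := finrank_span_eq_card hli
  rw [hsp, htop, finrank_top, Module.finrank_fintype_fun_eq_card] at hc
  let e : κ ≃ κ' := Fintype.equivOfCardEq hc
  refine ⟨fun k => a (e k), ?_⟩
  have hli2 : LinearIndependent L (Matrix.of fun k b => A (a (e k)) b).row :=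
    hli.comp e e.injective
  exact ((Matrix.isUnit_iff_isUnit_det _).1
    (Matrix.linearIndependent_rows_iff_isUnit.1 hli2)).ne_zero

lemma rowsel' {D ρ κ : Type} [CommRing D] [IsDomain D] [Fintype κ] [DecidableEq κ]
    (A : ρ → κ → D) (h : ∀ v : κ → D, (∀ x, ∑ a, A x a * v a = 0) → v = 0) :
    ∃ σ : κ → ρ, (Matrix.of fun a b => A (σ a) b).det ≠ 0 := by
  have hinj := IsFractionRing.injective D (FractionRing D)
  obtain ⟨σ, hσ⟩ := rowsel (fun x a => algebraMap D (FractionRing D) (A x a)) (by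
    intro v hv
    obtain ⟨b, hb⟩ := IsLocalization.exist_integer_multiples_of_finite (nonZeroDivisors D) v
    choose w hw using hb
    have hw0 : w = 0 := h w (fun x => hinj (by
      rw [map_sum, map_zero, ← smul_zero (b : D), ← hv x, Finset.smul_sum]
      refine Finset.sum_congr rfl (fun a _ => ?_)
      rw [map_mul, hw a, mul_smul_comm]))
    funext a
    have h1 := hw a
    rw [hw0, Pi.zero_apply, map_zero, Algebra.smul_def] at h1
    have hb0 : algebraMap D (FractionRing D) b ≠ 0 := by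
      rw [Ne, map_eq_zero_iff _ hinj]
      exact nonZeroDivisors.ne_zero b.2
    exact (mul_eq_zero.1 h1.symm).resolve_left hb0)
  refine ⟨σ, fun h0 => hσ ?_⟩
  have h1 := RingHom.map_det (algebraMap D (FractionRing D)) (Matrix.of fun a b => A (σ a) b)
  rw [h0, map_zero] at h1
  exact h1.symm

lemma pow_map {A B ι : Type} [CommRing A] [CommRing B] (f : A →+* B) (g : ι → A) (J : Ideal B)
    (h : ∀ i, f (g i) ∈ J) {m : ℕ} {x : A} (hx : x ∈ Ideal.span (Set.range g) ^ m) :
    f x ∈ J ^ m := by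
  have h1 : (Ideal.span (Set.range g)).map f ≤ J := by
    rw [Ideal.map_le_iff_le_comap, Ideal.span_le]
    rintro _ ⟨i, rfl⟩
    exact h i
  have h2 := Ideal.mem_map_of_mem f hx
  rw [Ideal.map_pow] at h2
  exact Ideal.pow_right_mono h1 m h2

section
variable {D D' : Type} [CommRing D] [CommRing D']

/-- translation of the origin to `P` -/
noncomputable def tr (P : Fin 3 → D) : MvPolynomial (Fin 3) D →+* MvPolynomial (Fin 3) D :=
  eval₂Hom C (fun a => X a + C (P a))

lemma tr_C (P : Fin 3 → D) (c : D) : tr P (C c) = C c := by simp [tr]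

lemma tr_X (P : Fin 3 → D) (a : Fin 3) : tr P (X a) = X a + C (P a) := by simp [tr]

lemma tr_tr (P : Fin 3 → D) (F : MvPolynomial (Fin 3) D) : tr (-P) (tr P F) = F := by
  have : (tr (-P)).comp (tr P) = RingHom.id _ := by
    refine ringHom_ext (fun c => ?_) (fun a => ?_)
    · simp [tr_C]
    · simp [tr_C, tr_X]
  exact RingHom.congr_fun this F

lemma map_tr (ψ : D →+* D') (P : Fin 3 → D) (F : MvPolynomial (Fin 3) D) :
    map ψ (tr P F) = tr (fun a => ψ (P a)) (map ψ F) := by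
  have : (map ψ).comp (tr P) = (tr (fun a => ψ (P a))).comp (map ψ) := by
    refine ringHom_ext (fun c => ?_) (fun a => ?_)
    · simp [tr_C]
    · simp [tr_X]
  exact RingHom.congr_fun this F

lemma mem_iff (P : Fin 3 → D) (m : ℕ) (F : MvPolynomial (Fin 3) D) :
    F ∈ mP P ^ m ↔ ∀ β : Fin 3 →₀ ℕ, β.degree < m → coeff β (tr P F) = 0 := by
  rw [← mem_pow_idealOfVars_iff']
  constructor
  · intro h
    refine pow_map (tr P) _ _ (fun a => ?_) h
    rw [map_sub, tr_X, tr_C, add_sub_cancel_right]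
    exact Ideal.subset_span ⟨a, rfl⟩
  · intro h
    rw [← tr_tr P F]
    refine pow_map (tr (-P)) _ _ (fun a => ?_) h
    rw [tr_X, Pi.neg_apply, map_neg, ← sub_eq_add_neg]
    exact Ideal.subset_span ⟨a, rfl⟩

lemma map_mem (ψ : D →+* D') (P : Fin 3 → D) {m : ℕ} {F : MvPolynomial (Fin 3) D}
    (h : F ∈ mP P ^ m) : map ψ F ∈ mP (fun a => ψ (P a)) ^ m := by
  refine pow_map (map ψ) _ _ (fun a => ?_) h
  rw [map_sub, map_X, map_C]
  exact Ideal.subset_span ⟨a, rfl⟩

/-- exponents of degree `d` -/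
abbrev Ex (d : ℕ) : Type := ↥((Finset.univ : Finset (Fin 3)).finsuppAntidiag d)

lemma ex_iff {d : ℕ} {α : Fin 3 →₀ ℕ} :
    α ∈ (Finset.univ : Finset (Fin 3)).finsuppAntidiag d ↔ α.degree = d := by
  rw [Finset.mem_finsuppAntidiag, Finsupp.degree_eq_sum]
  simp

/-- the jet matrix -/
noncomputable def jm {r : ℕ} (d : ℕ) (m : Fin r → ℕ) (P : Fin r → Fin 3 → D)
    (x : Fin r × (Fin 3 →₀ ℕ)) (α : Ex d) : D :=
  if x.2.degree < m x.1 then coeff x.2 (tr (P x.1) (monomial α.1 1)) else 0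

lemma map_jm {r : ℕ} (d : ℕ) (m : Fin r → ℕ) (P : Fin r → Fin 3 → D) (ψ : D →+* D')
    (x : Fin r × (Fin 3 →₀ ℕ)) (α : Ex d) :
    ψ (jm d m P x α) = jm d m (fun i a => ψ (P i a)) x α := by
  unfold jm
  split_ifs
  · rw [← coeff_map, map_tr, map_monomial, map_one]
  · exact map_zero ψ

/-- no curve of degree `d` with multiplicities `m` at the points `P` -/
def NoF {r : ℕ} (d : ℕ) (m : Fin r → ℕ) (P : Fin r → Fin 3 → D) : Prop :=
  ∀ F : MvPolynomial (Fin 3) D, F.IsHomogeneous d → (∀ i, F ∈ mP (P i) ^ m i) → F = 0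

noncomputable def poly {d : ℕ} (v : Ex d → D) : MvPolynomial (Fin 3) D :=
  ∑ α : Ex d, monomial α.1 (v α)

lemma poly_hom {d : ℕ} (v : Ex d → D) : (poly v).IsHomogeneous d :=
  IsHomogeneous.sum _ _ _ (fun α _ => isHomogeneous_monomial _ (ex_iff.1 α.2))

lemma coeff_poly {d : ℕ} (v : Ex d → D) (α : Ex d) : coeff α.1 (poly v) = v α := by
  rw [poly, coeff_sum, Finset.sum_eq_single α]
  · rw [coeff_monomial, if_pos rfl]
  · intro β _ hβ
    rw [coeff_monomial, if_neg (fun h => hβ (Subtype.ext h))]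
  · simp

lemma poly_coeff {d : ℕ} {F : MvPolynomial (Fin 3) D} (hF : F.IsHomogeneous d) :
    poly (fun α : Ex d => coeff α.1 F) = F := by
  ext β
  by_cases hβ : β.degree = d
  · exact coeff_poly (fun α : Ex d => coeff α.1 F) ⟨β, ex_iff.2 hβ⟩
  · rw [(poly_hom _).coeff_eq_zero hβ, hF.coeff_eq_zero hβ]

lemma poly_mem {r d : ℕ} (m : Fin r → ℕ) (P : Fin r → Fin 3 → D) (v : Ex d → D) :
    (∀ i, poly v ∈ mP (P i) ^ m i) ↔ ∀ x, ∑ α, jm d m P x α * v α = 0 := by
  have e : ∀ i β, coeff β (tr (P i) (poly v)) =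
      ∑ α : Ex d, coeff β (tr (P i) (monomial α.1 1)) * v α := by
    intro i β
    rw [poly, map_sum, coeff_sum]
    refine Finset.sum_congr rfl (fun α _ => ?_)
    rw [← mul_one (v α), ← C_mul_monomial, map_mul, tr_C, coeff_C_mul, mul_one, mul_comm]
  constructor
  · intro h x
    unfold jm
    by_cases hx : x.2.degree < m x.1
    · simp only [if_pos hx]
      rw [← e]
      exact (mem_iff _ _ _).1 (h x.1) _ hx
    · simp [if_neg hx]
  · intro h i
    rw [mem_iff]
    intro β hβ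
    have h1 := h (i, β)
    unfold jm at h1
    simp only [if_pos hβ] at h1
    rw [e, h1]

lemma noF_iff {r d : ℕ} (m : Fin r → ℕ) (P : Fin r → Fin 3 → D) :
    NoF d m P ↔ ∀ v : Ex d → D, (∀ x, ∑ α, jm d m P x α * v α = 0) → v = 0 := by
  constructor
  · intro h v hv
    have h0 := h _ (poly_hom v) ((poly_mem m P v).2 hv)
    funext α
    rw [← coeff_poly v α, h0, coeff_zero, Pi.zero_apply]
  · intro h F hF hm
    rw [← poly_coeff hF] at hm ⊢
    rw [h _ ((poly_mem m P _).1 hm)]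
    simp [poly]

end

/-- specialisation -/
lemma spec {S D : Type} [CommRing S] [CommRing D] [IsDomain D] {r d : ℕ} (m : Fin r → ℕ)
    (P : Fin r → Fin 3 → S) (φ : S →+* D) (h : NoF d m (fun i a => φ (P i a))) :
    ∃ Δ : S, Δ ≠ 0 ∧ ∀ (D' : Type) [CommRing D'] [IsDomain D'] (ψ : S →+* D'), ψ Δ ≠ 0 →
      NoF d m (fun i a => ψ (P i a)) := by
  obtain ⟨σ, hσ⟩ := rowsel' _ ((noF_iff m _).1 h)
  have hdet : ∀ (D' : Type) [CommRing D'] (ψ : S →+* D'),
      ψ (Matrix.of fun a b => jm d m P (σ a) b).det =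
        (Matrix.of fun a b => jm d m (fun i a => ψ (P i a)) (σ a) b).det := by
    intro D' _ ψ
    rw [RingHom.map_det]
    congr 1
    ext a b
    exact map_jm d m P ψ _ _
  refine ⟨(Matrix.of fun a b => jm d m P (σ a) b).det, fun h0 => hσ ?_, ?_⟩
  · rw [← hdet, h0, map_zero]
  · intro D' _ _ ψ hψ
    rw [hdet] at hψ
    rw [noF_iff]
    intro v hv
    exact Matrix.eq_zero_of_mulVec_eq_zero hψ (funext fun a => hv (σ a))

/-- the generic points -/
noncomputable def xg (r : ℕ) (i : Fin r) (a : Fin 3) : MvPolynomial (Fin r × Fin 3) ℂ := X (i, a)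

lemma step1 (h : CoreStmt) {r d m : ℕ} (hr : 10 ≤ r) (hm : 1 ≤ m) (hd : 3 * m < d)
    (hdm : d ^ 2 ≤ r * m ^ 2) : NoF d (fun _ => m) (xg r) := by
  obtain ⟨P, hP⟩ := h r d m hr hm hd hdm
  let φ : MvPolynomial (Fin r × Fin 3) ℂ →+* Polynomial K :=
    eval₂Hom (Polynomial.C.comp HahnSeries.C) (fun x => P x.1 x.2)
  have e : (fun i a => φ (xg r i a)) = P := by
    funext i a
    simp [φ, xg]
  obtain ⟨Δ, hΔ, hs⟩ := spec (D := Polynomial K) (d := d) (fun _ => m) (xg r) φ (by rw [e]; exact hP)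
  exact hs _ (RingHom.id _) hΔ

lemma step1' (h : CoreStmt) {r d m : ℕ} (hr : 10 ≤ r) (hm : 1 ≤ m)
    (hdm : d ^ 2 ≤ r * m ^ 2) : NoF d (fun _ => m) (xg r) := by
  by_cases hd : 3 * m < d
  · exact step1 h hr hm hd hdm
  · intro F hF hmem
    obtain ⟨e, he⟩ : ∃ e, 21 * m + 1 = d * 7 + 1 * e := ⟨21 * m + 1 - d * 7, by omega⟩
    have h1 := step1 h (d := 21 * m + 1) (m := m * 7) hr (by omega) (by omega) (by nlinarith)
      (F ^ 7 * X 0 ^ e) (he ▸ (hF.pow 7).mul ((isHomogeneous_X _ 0).pow e)) (fun i => by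
        refine Ideal.mul_mem_right _ _ ?_
        rw [pow_mul]
        exact Ideal.pow_mem_pow (hmem i) 7)
    rcases mul_eq_zero.1 h1 with h2 | h2
    · exact pow_eq_zero_iff (by norm_num) |>.1 h2
    · exact absurd (pow_eq_zero_iff' |>.1 h2).1 (X_ne_zero _)

lemma step2 (h : CoreStmt) {r d : ℕ} (m : Fin r → ℕ) (hr : 10 ≤ r) (hd : 1 ≤ d)
    (hdm : r * d ^ 2 ≤ (∑ i, m i) ^ 2) : NoF d m (xg r) := by
  intro F hF hmem
  by_contra hF0
  have : NeZero r := ⟨by omega⟩
  let τ : Fin r → (MvPolynomial (Fin r × Fin 3) ℂ →+* MvPolynomial (Fin r × Fin 3) ℂ) :=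
    fun s => (rename (fun x : Fin r × Fin 3 => (x.1 + s, x.2))).toRingHom
  have hτ : ∀ s, Function.Injective (τ s) := fun s =>
    rename_injective _ (fun x y hxy => by
      simp only [Prod.mk.injEq, add_left_inj] at hxy
      exact Prod.ext hxy.1 hxy.2)
  have hm1 : 1 ≤ ∑ i, m i := by
    by_contra h0
    have h1 : ∑ i, m i = 0 := by omega
    rw [h1] at hdm
    nlinarith [Nat.one_le_pow 2 d hd]
  have h1 := step1' h (d := ∑ _s : Fin r, d) hr hm1 (by
      simp only [Finset.sum_const, Finset.card_univ, Fintype.card_fin, smul_eq_mul]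
      calc (r * d) ^ 2 = r * (r * d ^ 2) := by ring
        _ ≤ _ := Nat.mul_le_mul_left r hdm)
    (∏ s, map (τ s) F) (IsHomogeneous.prod _ _ _ (fun s _ => hF.map _)) (fun j => by
      rw [← Equiv.sum_comp (Equiv.subLeft j) m, ← Finset.prod_pow_eq_pow_sum]
      refine Ideal.prod_mem_prod (fun s _ => ?_)
      have h2 := map_mem (τ s) _ (hmem (j - s))
      have e : (fun a => τ s (xg r (j - s) a)) = xg r j := by
        funext a
        simp [τ, xg]
      rw [e] at h2
      exact h2)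
  obtain ⟨s, -, hs⟩ := Finset.prod_eq_zero_iff.1 h1
  exact hF0 (map_injective _ (hτ s) (by rw [hs, map_zero]))

end Gen

theorem gen (h : CoreStmt) : GenStmt := by
  intro r d m hr hd hdm
  obtain ⟨Δ, hΔ, hs⟩ := Gen.spec (d := d) m (Gen.xg r) (RingHom.id _) (Gen.step2 h m hr hd hdm)
  refine ⟨Δ, hΔ, fun v hv => ?_⟩
  have h1 := hs ℂ (eval (fun x : Fin r × Fin 3 => v x.1 x.2)) hv
  have e : (fun i a => eval (fun x : Fin r × Fin 3 => v x.1 x.2) (Gen.xg r i a)) = v := by
    funext i a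
    simp [Gen.xg]
  rw [e] at h1
  exact h1

end Vale.Agent.P279
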