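import Vale.Agent.P279.Spec

/-! Module K of P279: an orbit of fat points kills the kite. -/

namespace Vale.Agent.P279

open MvPolynomial Finset

namespace Kill

/-- the translated polynomial with weights `q` -/
noncomputable def Ps (A : Finset (ℕ × ℤ)) (c : ℂ) (q : ℕ × ℤ → ℂ) : MvPolynomial (Fin 2) ℂ :=
  ∑ x ∈ A, C (q x) * ((C c + X 0) ^ x.2.toNat * (C 1 + X 1) ^ x.1)

lemma der (i : Fin 2) {a : ℕ} {p : MvPolynomial (Fin 2) ℂ} (h : p ∈ idealOfVars (Fin 2) ℂ ^ (a + 1)) :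
    pderiv i p ∈ idealOfVars (Fin 2) ℂ ^ a := by
  rw [mem_pow_idealOfVars_iff'] at h ⊢
  intro x hx
  rw [coeff_pderiv, h _ (by simpa using hx), zero_mul]

lemma eul {R : Type} [CommRing R] (y : R) (k : ℕ) : y * (k * y ^ (k - 1)) = k * y ^ k := by
  cases k
  · simp
  · simp only [Nat.add_sub_cancel]; ring

variable {A : Finset (ℕ × ℤ)} {c : ℂ}

lemma step (hA : ∀ x ∈ A, 0 ≤ x.2) (i : Bool) (s : ℤ) {a : ℕ} {q : ℕ × ℤ → ℂ}
    (h : Ps A c q ∈ idealOfVars (Fin 2) ℂ ^ (a + 1)) :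
    Ps A c (fun x => (((if i then x.2 else x.1) - s : ℤ) : ℂ) * q x) ∈ idealOfVars (Fin 2) ℂ ^ a := by
  have := Ideal.sub_mem _ (Ideal.mul_mem_left _ (if i then C c + X 0 else C 1 + X 1)
    (der (if i then 0 else 1) h)) (Ideal.mul_mem_left _ (C (s : ℂ))
      (Ideal.pow_le_pow_right a.le_succ h))
  convert this using 1
  simp only [Ps, map_sum, mul_sum, ← sum_sub_distrib]
  refine sum_congr rfl fun x hx => ?_
  obtain ⟨k, hk⟩ := Int.eq_ofNat_of_zero_le (hA x hx)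
  have e0 := eul (C c + X 0 : MvPolynomial (Fin 2) ℂ) k
  have e1 := eul (C 1 + X 1 : MvPolynomial (Fin 2) ℂ) x.1
  cases i <;> simp [hk] at e0 e1 ⊢
  · linear_combination -(C (q x) * (C c + X 0) ^ k) * e1
  · linear_combination -(C (q x) * (1 + X 1) ^ x.1) * e0

lemma steps (hA : ∀ x ∈ A, 0 ≤ x.2) (i : Bool) (t : Finset ℤ) {a : ℕ} {q : ℕ × ℤ → ℂ}
    (h : Ps A c q ∈ idealOfVars (Fin 2) ℂ ^ (a + #t)) :
    Ps A c (fun x => (∏ s ∈ t, (((if i then x.2 else x.1) - s : ℤ) : ℂ)) * q x) ∈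
      idealOfVars (Fin 2) ℂ ^ a := by
  induction t using Finset.induction_on generalizing a with
  | empty => simpa using h
  | insert s t hs ih =>
    rw [card_insert_of_notMem hs, ← add_assoc, add_right_comm] at h
    simpa only [prod_insert hs, mul_assoc] using step hA i s (ih h)

lemma last {q : ℕ × ℤ → ℂ} (h : Ps A c q ∈ idealOfVars (Fin 2) ℂ ^ 1) :
    ∑ x ∈ A, q x * c ^ x.2.toNat = 0 := by
  have := (mem_pow_idealOfVars_iff' _ _).1 h 0 (by simp)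
  rw [← constantCoeff_eq] at this
  simpa [Ps] using this

lemma kite {m d k g : ℤ} {j1 j2 : ℤ} (hm : 1 ≤ m) (hd : 3 * m < d) (h0 : 0 ≤ j1)
    (h : g ≤ j2 + 1 - j1) (h1 : Om m d j1 k) (h2 : Om m d j2 k) :
    -(d * (d - 3 * m) * (m - g + 1)) ≤ m * (m * k - d * (d - 3 * m)) ∧
      m * k - d * (d - 3 * m) < 3 * (d - 3 * m) * (m - g + 1) := by
  obtain ⟨a1, -, a3, a4, a5⟩ := h2
  have a2 := h1.2.1
  constructor
  · nlinarith [mul_le_mul_of_nonneg_left a2 (by linarith : 0 ≤ d),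
      mul_le_mul_of_nonneg_left a4 (by linarith : 0 ≤ d - 3 * m),
      mul_le_mul_of_nonneg_left h (by nlinarith : 0 ≤ d * (d - 3 * m))]
  have b := mul_le_mul_of_nonneg_left (by linarith : m - j2 ≤ m - g + 1)
    (by linarith : 0 ≤ d - 3 * m)
  rcases lt_or_ge j2 m with p | p
  · nlinarith [a3 p]
  · rcases a1.eq_or_lt with e | e
    · nlinarith
    · nlinarith [a5 e]

end Kill

open Kill in
theorem kill : KStmt := by
  intro m d n hm hd hn hdn c ζ c0 hζ S b hV hO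
  obtain ⟨A, hA⟩ : ∃ A : Finset (ℕ × ℤ), ∀ x, x ∈ A ↔ x.1 ∈ S ∧ x.2 ∈ (b x.1).coeff.support :=
    ⟨(S ×ˢ S.biUnion fun j => (b j).coeff.support).filter fun x => x.2 ∈ (b x.1).coeff.support,
      fun x => by simp only [mem_filter, mem_product, mem_biUnion]; tauto⟩
  have hm' : (1 : ℤ) ≤ m := by exact_mod_cast hm
  have hd' : (3 * m : ℤ) < d := by exact_mod_cast hd
  have hdn' : (d : ℤ) ^ 2 ≤ (n + 9) * m ^ 2 := by exact_mod_cast hdn
  have om : ∀ x ∈ A, Om m d x.1 x.2 := fun x hx =>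
    hO _ ((hA x).1 hx).1 _ (Finsupp.mem_support_iff.1 ((hA x).1 hx).2)
  have A0 : ∀ x ∈ A, 0 ≤ x.2 := fun x hx => by
    obtain ⟨a1, a2, -⟩ := om x hx
    nlinarith [mul_nonneg (sub_nonneg.2 a1) (sub_nonneg.2 hd'.le)]
  have van : ∀ a < n, Ps A (c * ζ ^ a) (fun x => (b x.1).coeff x.2) ∈ idealOfVars (Fin 2) ℂ ^ m :=
    fun a ha => by
      obtain ⟨ε, ⟨e1, e2⟩, e⟩ := hV a ha
      rw [← Ideal.Quotient.eq_zero_iff_mem, ← e, Ps, sum_finset_product A S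
        (fun j => (b j).coeff.support) hA, map_sum]
      refine sum_congr rfl fun j hj => ?_
      conv_rhs => rw [← (b j).sum_coeff_single, Finsupp.sum, map_sum, mul_sum]
      rw [map_sum]
      refine sum_congr rfl fun k hk => ?_
      obtain ⟨k, rfl⟩ := Int.eq_ofNat_of_zero_le (A0 (j, k) ((hA _).2 ⟨hj, hk⟩))
      rw [LaurentPolynomial.single_eq_C_mul_T, map_mul ε, e1, ← mul_one (k : ℤ),
        ← LaurentPolynomial.T_pow, map_pow ε, e2, mul_one]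
      simp only [map_mul, map_pow, Int.toNat_natCast, jq]
      ring
  by_contra! hc
  obtain ⟨j', hj', hb⟩ := hc
  obtain ⟨k', hk'⟩ : (b j').coeff.support.Nonempty := Finsupp.support_nonempty_iff.2 (by simpa)
  obtain ⟨col, hcol⟩ : ∃ col : ℤ → Finset ℤ, ∀ k j, j ∈ col k ↔ ∃ x ∈ A, x.2 = k ∧ x.1 = j :=
    ⟨fun k => (A.filter fun x => x.2 = k).image fun x => (x.1 : ℤ), by simp [and_assoc]⟩
  obtain ⟨Cs, hCs⟩ : ∃ Cs : Finset ℤ, ∀ k, k ∈ Cs ↔ (n : ℤ) ∣ k - k' ∧ ∃ x ∈ A, x.2 = k :=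
    ⟨(A.image Prod.snd).filter fun k => (n : ℤ) ∣ k - k', by simp [and_comm]⟩
  have ne : Cs.Nonempty := ⟨k', (hCs _).2 ⟨by simp, (j', k'), (hA _).2 ⟨hj', hk'⟩, rfl⟩⟩
  obtain ⟨k0, hk0, hmin⟩ := Cs.exists_min_image (fun k => #(col k)) ne
  have bd : ∀ k ∈ Cs, -(d * (d - 3 * m) * (m - #(col k0) + 1) : ℤ) ≤ m * (m * k - d * (d - 3 * m)) ∧
      (m * k - d * (d - 3 * m) : ℤ) < 3 * (d - 3 * m) * (m - #(col k0) + 1) := fun k hk => by
    obtain ⟨x, hx, e⟩ := ((hCs k).1 hk).2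
    have cn : (col k).Nonempty := ⟨_, (hcol _ _).2 ⟨x, hx, e, rfl⟩⟩
    obtain ⟨x1, a1, rfl, b1⟩ := (hcol _ _).1 (min'_mem _ cn)
    obtain ⟨x2, a2, c2, b2⟩ := (hcol _ _).1 (max'_mem _ cn)
    have := card_le_card fun j (hj : j ∈ col x1.2) =>
      mem_Icc.2 ⟨b1.trans_le (min'_le _ j hj), (le_max' _ j hj).trans_eq b2.symm⟩
    have le := b1.trans_le ((min'_le_max' _ cn).trans_eq b2.symm)
    rw [Int.card_Icc] at this
    have := hmin _ hk
    exact kite hm' hd' x1.1.cast_nonneg (by omega) (om _ a1) (c2 ▸ om _ a2)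
  have wd : ∀ k ∈ Cs, ∀ l ∈ Cs, k - l < n * (m - #(col k0) + 1) := fun k hk l hl => by
    have a1 := bd k hk
    have a2 := bd l hl
    generalize (m - #(col k0) + 1 : ℤ) = i at *
    have p : (0 : ℤ) < (d - 3 * m) * (d + 3 * m) := mul_pos (by linarith) (by linarith)
    have i0 : 0 < i := (mul_pos_iff_of_pos_left p).1 (by nlinarith [a1.1, a1.2])
    refine lt_of_mul_lt_mul_left (a := (m : ℤ) ^ 2) ?_ (by positivity)
    nlinarith [a1.2, a2.1, mul_le_mul_of_nonneg_right hdn' i0.le]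
  have cd : (#Cs : ℤ) ≤ m - #(col k0) + 1 := by
    have n0 : (0 : ℤ) < n := by exact_mod_cast hn
    have i0 : (0 : ℤ) < m - #(col k0) + 1 := (mul_pos_iff_of_pos_left n0).1
      (by simpa only [sub_self] using wd _ hk0 _ hk0)
    have : Cs ⊆ (Ico 0 (m - #(col k0) + 1 : ℤ)).image fun t => Cs.min' ne + n * t := fun k hk => by
      obtain ⟨t, ht⟩ := dvd_sub ((hCs k).1 hk).1 ((hCs _).1 (min'_mem _ ne)).1
      have a1 := wd k hk _ (min'_mem _ ne)
      have a2 := min'_le _ k hk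
      refine mem_image.2 ⟨t, mem_Ico.2 ⟨?_, ?_⟩, by linarith⟩ <;> nlinarith
    have := (card_le_card this).trans card_image_le
    rw [Int.card_Ico] at this
    omega
  obtain ⟨x0, hx0, rfl⟩ := ((hCs k0).1 hk0).2
  have j0 : (x0.1 : ℤ) ∈ col x0.2 := (hcol _ _).2 ⟨x0, hx0, rfl, rfl⟩
  obtain ⟨q, hq⟩ : ∃ q : ℕ × ℤ → ℂ, q = fun x => (∏ s ∈ Cs.erase x0.2, ((x.2 - s : ℤ) : ℂ)) *
    ((∏ s ∈ (col x0.2).erase x0.1, ((x.1 - s : ℤ) : ℂ)) * (b x.1).coeff x.2) := ⟨_, rfl⟩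
  have z : ∀ a ∈ range n, ∑ x ∈ A, q x * (c * ζ ^ a) ^ x.2.toNat = 0 := fun a ha => by
    rw [hq]
    refine last (steps A0 true _ (steps A0 false _
      (Ideal.pow_le_pow_right ?_ (van a (mem_range.1 ha)))))
    have := card_erase_add_one hk0
    have := card_erase_add_one j0
    omega
  have z0 : ζ ≠ 0 := hζ.ne_zero (by omega)
  have := sum_eq_zero fun a ha => mul_eq_zero_of_right ((ζ ^ (-x0.2)) ^ a) (z a ha)
  simp only [mul_sum] at this
  rw [sum_comm, sum_congr rfl (g := fun x => q x * c ^ x.2.toNat *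
    ∑ a ∈ range n, (ζ ^ (x.2 - x0.2)) ^ a) fun x hx => by
      rw [mul_sum]
      refine sum_congr rfl fun a _ => ?_
      obtain ⟨k, hk⟩ := Int.eq_ofNat_of_zero_le (A0 x hx)
      rw [hk, sub_eq_add_neg, zpow_add₀ z0, zpow_natCast, Int.toNat_natCast]
      ring, sum_eq_single_of_mem x0 hx0 fun x hx ne => ?_] at this
  · refine absurd this (mul_ne_zero (mul_ne_zero ?_ (pow_ne_zero _ c0)) (by simpa using by omega))
    rw [hq]
    refine mul_ne_zero (prod_ne_zero_iff.2 fun s hs => ?_) (mul_ne_zero (prod_ne_zero_iff.2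
      fun s hs => ?_) (Finsupp.mem_support_iff.1 ((hA _).1 hx0).2)) <;>
    exact Int.cast_ne_zero.2 (sub_ne_zero.2 (mem_erase.1 hs).1.symm)
  by_cases h : (n : ℤ) ∣ x.2 - x0.2
  · refine mul_eq_zero_of_left (mul_eq_zero_of_left ?_ _) _
    rw [hq]
    by_cases e : x.2 = x0.2
    · exact mul_eq_zero_of_right _ (mul_eq_zero_of_left (prod_eq_zero (mem_erase.2
        ⟨fun f => ne (Prod.ext (by exact_mod_cast f) e), (hcol _ _).2 ⟨x, hx, e, rfl⟩⟩) (by simp)) _)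
    · exact mul_eq_zero_of_left (prod_eq_zero (mem_erase.2 ⟨e, (hCs _).2
        ⟨by simpa using dvd_add h ((hCs _).1 hk0).1, x, hx, rfl⟩⟩) (by simp)) _
  · refine mul_eq_zero_of_right _ ?_
    rw [geom_sum_eq (mt (hζ.zpow_eq_one_iff_dvd _).1 h), ← zpow_natCast, ← zpow_mul, mul_comm,
      zpow_mul, zpow_natCast, hζ.pow_eq_one, one_zpow, sub_self, zero_div]

end Vale.Agent.P279
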