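import Vale.Agent.P279.Defs

namespace Vale.Agent.P279

open MvPolynomial

/-- Laurent polynomials in `u`. -/
abbrev L : Type := LaurentPolynomial ℂ
/-- Laurent series in `t`. -/
abbrev K : Type := HahnSeries ℤ ℂ
/-- Laurent series in `t` with coefficients Laurent polynomials in `u`. -/
abbrev R : Type := HahnSeries ℤ L

/-- Coefficientwise map of Laurent series, as a ring homomorphism. -/
noncomputable def hm {A B : Type} [CommRing A] [CommRing B] (f : A →+* B) :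
    HahnSeries ℤ A →+* HahnSeries ℤ B where
  toFun x := x.map f
  map_one' := by
    ext n
    simp only [HahnSeries.map_coeff, HahnSeries.coeff_one]
    split_ifs <;> simp
  map_mul' x y := HahnSeries.map_mul (f : A →ₙ+* B)
  map_zero' := by ext n; simp
  map_add' x y := by ext n; simp

@[simp] theorem hm_coeff {A B : Type} [CommRing A] [CommRing B] (f : A →+* B)
    (x : HahnSeries ℤ A) (n : ℤ) : (hm f x).coeff n = f (x.coeff n) := rfl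

/-- The coefficient of `t^n u^k`. -/
noncomputable def ar (f : R) (n k : ℤ) : ℂ := (f.coeff n).coeff k

/-- `θ β i = ∑_{k ≡ i (3)} t^(M k^2 + β k) u^k`. -/
def IsTh (M : ℤ) (θ : ℤ → Fin 3 → R) : Prop :=
  ∀ (β : ℤ) (i : Fin 3) (n k : ℤ),
    ar (θ β i) n k = if k % 3 = (i : ℕ) ∧ n = M * k ^ 2 + β * k then 1 else 0

/-- Substitution of the theta series into a polynomial. -/
noncomputable def ev (θ : ℤ → Fin 3 → R) (β : ℤ) : MvPolynomial (Fin 3) K →+* R :=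
  eval₂Hom (hm LaurentPolynomial.C) (θ β)

def ShiftP (θ : ℤ → Fin 3 → R) : Prop :=
  ∀ (β h : ℤ) (F : MvPolynomial (Fin 3) K) (n k : ℤ),
    ar (ev θ (β + h) F) (n + h * k) k = ar (ev θ β F) n k

def RecP (M : ℤ) (θ : ℤ → Fin 3 → R) : Prop :=
  ∀ (β : ℤ) (F : MvPolynomial (Fin 3) K) (e : ℕ), F.IsHomogeneous e → ∀ n k : ℤ,
    ar (ev θ β F) (n + 6 * M * k + (3 * β + 9 * M) * e) (k + 3 * e) = ar (ev θ β F) n k

/-- Module T. -/
def TStmt : Prop :=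
  ∀ M : ℤ, 0 < M → ∃ θ : ℤ → Fin 3 → R, IsTh M θ ∧ ShiftP θ ∧ RecP M θ

/-- Module G: the cubic. -/
def GStmt : Prop :=
  ∀ (M : ℤ) (θ : ℤ → Fin 3 → R), 0 < M → IsTh M θ → ShiftP θ → RecP M θ →
    ∃ G : MvPolynomial (Fin 3) K, G.IsHomogeneous 3 ∧ (∀ β, ev θ β G = 0) ∧
      (∀ (β : ℤ) (F : MvPolynomial (Fin 3) K) (e : ℕ), F.IsHomogeneous e → ev θ β F = 0 → G ∣ F) ∧
      ∃ i : Fin 3, ∀ β, ev θ β (pderiv i G) ≠ 0

/-- The ideal of the point `P`. -/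
noncomputable def mP {D : Type} [CommRing D] (P : Fin 3 → D) : Ideal (MvPolynomial (Fin 3) D) :=
  Ideal.span (Set.range fun i => X i - C (P i))

/-- The point `P0 + y * c * e_i` over `k[y]`. -/
noncomputable def pt {k : Type} [Field k] (P0 : Fin 3 → k) (c : k) (i : Fin 3) :
    Fin 3 → Polynomial k :=
  fun a => Polynomial.C (P0 a) + if a = i then Polynomial.X * Polynomial.C c else 0

/-- Module N: degeneration to the normal cone of the cubic. -/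
def NStmt : Prop :=
  ∀ (k : Type) [Field k] (G : MvPolynomial (Fin 3) k), G.IsHomogeneous 3 →
    ∀ (d : ℕ) (F : MvPolynomial (Fin 3) (Polynomial k)), F ≠ 0 → F.IsHomogeneous d →
    ∃ (S : Finset ℕ) (F' : ℕ → MvPolynomial (Fin 3) k), S.Nonempty ∧
      (∀ j ∈ S, 3 * j ≤ d ∧ (F' j).IsHomogeneous (d - 3 * j) ∧ ¬ G ∣ F' j) ∧
      ∀ (A : Type) [CommRing A] (φ : k →+* A) (J : Ideal A) (m : ℕ) (ϑ : Fin 3 → A)
        (P0 : Fin 3 → k) (i : Fin 3) (w0 : k) (ω : A),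
        J ^ m = ⊥ → ω ∈ J → (∀ a, ϑ a - φ (P0 a) ∈ J) → eval₂ φ ϑ G = 0 →
        eval P0 (pderiv i G) ≠ 0 →
        F ∈ mP (pt P0 (w0 / eval P0 (pderiv i G)) i) ^ m →
        ∑ j ∈ S, (φ w0 + ω) ^ j * eval₂ φ ϑ (F' j) = 0

/-- Jets of order `< m` in two variables. -/
abbrev Jt (m : ℕ) : Type := MvPolynomial (Fin 2) ℂ ⧸ (idealOfVars (Fin 2) ℂ) ^ m

/-- The quotient map to jets. -/
noncomputable def jq (m : ℕ) : MvPolynomial (Fin 2) ℂ →+* Jt m := Ideal.Quotient.mk _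

/-- `ε` is the Taylor expansion of Laurent polynomials at `u = c`. -/
def IsEps (m : ℕ) (c : ℂ) (ε : L →+* Jt m) : Prop :=
  (∀ a : ℂ, ε (LaurentPolynomial.C a) = jq m (C a)) ∧
    ε (LaurentPolynomial.T 1) = jq m (C c + X 0)

/-- `∑ w^j b_j(u)` vanishes to order `m` at `(u, w) = (c, w0)`. -/
def Van (m : ℕ) (c w0 : ℂ) (S : Finset ℕ) (b : ℕ → L) : Prop :=
  ∃ ε : L →+* Jt m, IsEps m c ε ∧ ∑ j ∈ S, jq m (C w0 + X 1) ^ j * ε (b j) = 0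

/-- The kite. -/
def Om (m d j k : ℤ) : Prop :=
  3 * j ≤ d ∧ (d - 3 * j) * (d - 3 * m) ≤ m * k ∧
    (j < m → m * k < (d - 3 * m) * (d + 3 * m - 3 * j)) ∧
    m * k ≤ (d - 3 * j) * d ∧ (3 * j < d → m * k < (d - 3 * j) * d)

/-- Module K: `n` fat points (a `μ_n`-orbit) kill the kite. -/
def KStmt : Prop :=
  ∀ (m d n : ℕ), 1 ≤ m → 3 * m < d → 1 ≤ n → d ^ 2 ≤ (n + 9) * m ^ 2 →
    ∀ (c ζ : ℂ), c ≠ 0 → IsPrimitiveRoot ζ n → ∀ (S : Finset ℕ) (b : ℕ → L),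
      (∀ a < n, Van m (c * ζ ^ a) 1 S b) →
      (∀ j ∈ S, ∀ k : ℤ, (b j).coeff k ≠ 0 → Om m d j k) → ∀ j ∈ S, b j = 0

/-- Module W: nine fat points on `w = 0` force wide rows. -/
def WStmt : Prop :=
  ∀ (m : ℕ) (c : Fin 9 → ℂ), Function.Injective c → (∀ i, c i ≠ 0) →
    ∀ (S : Finset ℕ) (b : ℕ → L), (∀ i, Van m (c i) 0 S b) →
      ∀ j ∈ S, j < m → b j ≠ 0 → ∃ k1 k2 : ℤ, (b j).coeff k1 ≠ 0 ∧ (b j).coeff k2 ≠ 0 ∧
        k1 + 9 * ((m : ℤ) - j) ≤ k2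

/-- The core statement (module Z, helper26). -/
def CoreStmt : Prop :=
  ∀ (r d m : ℕ), 10 ≤ r → 1 ≤ m → 3 * m < d → d ^ 2 ≤ r * m ^ 2 →
    ∃ P : Fin r → Fin 3 → Polynomial K, ∀ F : MvPolynomial (Fin 3) (Polynomial K),
      F.IsHomogeneous d → (∀ i, F ∈ mP (P i) ^ m) → F = 0

/-- Generic emptiness for an arbitrary multiplicity vector (module A1). -/
def GenStmt : Prop :=
  ∀ (r d : ℕ) (m : Fin r → ℕ), 10 ≤ r → 1 ≤ d → r * d ^ 2 ≤ (∑ i, m i) ^ 2 →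
    ∃ D : MvPolynomial (Fin r × Fin 3) ℂ, D ≠ 0 ∧
      ∀ v : Fin r → Fin 3 → ℂ, eval (fun x : Fin r × Fin 3 => v x.1 x.2) D ≠ 0 →
        ∀ F : MvPolynomial (Fin 3) ℂ, F.IsHomogeneous d → (∀ i, F ∈ mP (v i) ^ m i) → F = 0

/-- The final statement (module A2). -/
def FinalStmt : Prop :=
  ∀ r : ℕ, 10 ≤ r → ∃ Z : ℕ → Set (Fin r → P2),
    (∀ n, ZClosed (Z n) ∧ ∃ p : Fin r → P2, Function.Injective p ∧ p ∉ Z n) ∧
    ∀ p : Fin r → P2, Function.Injective p → (∀ n, p ∉ Z n) →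
      ∀ d : ℕ, 1 ≤ d → ∀ F : MvPolynomial (Fin 3) ℂ, F ≠ 0 → F.IsHomogeneous d →
        ∀ m : Fin r → ℕ, (∀ i, MultGe F (p i) (m i)) →
          ((∑ i, m i : ℕ) : ℝ) < d * Real.sqrt r

end Vale.Agent.P279
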