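import Vale.Agent.P279.Spec

namespace Vale.Agent.P279

open MvPolynomial

namespace ThM

lemma sq_ge (k : ℤ) : |k| ≤ k ^ 2 := by
  rw [← sq_abs]
  rcases (abs_nonneg k).eq_or_lt with h | h
  · rw [← h]; simp
  · nlinarith

lemma fin (M β n : ℤ) (hM : 0 < M) : {k : ℤ | n = M * k ^ 2 + β * k}.Finite := by
  refine (Set.finite_Icc (-(|n| + β ^ 2)) (|n| + β ^ 2)).subset fun k hk => ?_
  have h1 : n = M * k ^ 2 + β * k := hk
  have h2 := sq_ge k
  have h3 : k ^ 2 ≤ M * k ^ 2 := by nlinarith [sq_nonneg k]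
  have h4 := le_abs_self n
  have h5 : k ^ 2 ≤ 2 * |n| + β ^ 2 := by nlinarith [sq_nonneg (k + β)]
  have h6 : |k| ≤ |n| + β ^ 2 := by
    by_contra hc
    have h7 : |n| + β ^ 2 + 1 ≤ |k| := by omega
    have h8 : (|n| + β ^ 2 + 1) ^ 2 ≤ |k| ^ 2 :=
      pow_le_pow_left₀ (by positivity) h7 2
    rw [sq_abs k] at h8
    nlinarith [abs_nonneg n, sq_nonneg β, sq_nonneg (|n| + β ^ 2)]
  exact abs_le.1 h6

/-- the coefficient of `t ^ n` -/
noncomputable def row (M : ℤ) (hM : 0 < M) (β : ℤ) (i : Fin 3) (n : ℤ) : L :=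
  AddMonoidAlgebra.ofCoeff (Finsupp.ofSupportFinite
    (fun k : ℤ => if k % 3 = (i : ℕ) ∧ n = M * k ^ 2 + β * k then (1 : ℂ) else 0)
    ((fin M β n hM).subset fun k hk => by
      by_contra hc
      exact hk (if_neg fun h => hc h.2)))

lemma row_coeff (M : ℤ) (hM : 0 < M) (β : ℤ) (i : Fin 3) (n k : ℤ) :
    (row M hM β i n).coeff k = if k % 3 = (i : ℕ) ∧ n = M * k ^ 2 + β * k then 1 else 0 := rfl

/-- the theta series -/
noncomputable def the (M : ℤ) (hM : 0 < M) (β : ℤ) (i : Fin 3) : R :=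
  HahnSeries.ofSuppBddBelow (row M hM β i) ⟨-β ^ 2, fun n hn => by
    by_contra hc
    refine hn (LaurentPolynomial.ext fun k => ?_)
    rw [row_coeff, if_neg]
    · rfl
    · rintro ⟨-, h⟩
      nlinarith [sq_nonneg k, sq_nonneg (k + β), sq_nonneg β]⟩

lemma ar_ext {f g : R} (h : ∀ n k, ar f n k = ar g n k) : f = g := by
  ext n k
  exact h n k

lemma ar_add (f g : R) (n k : ℤ) : ar (f + g) n k = ar f n k + ar g n k := rfl

lemma ar_mul (f g : R) (n k : ℤ) :
    ar (f * g) n k = ∑ᶠ p : ℤ × ℤ, ar f p.1 p.2 * ar g (n - p.1) (k - p.2) := by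
  classical
  set A := Finset.antidiagonal f.isPWO_support g.isPWO_support n with hA
  set T := A.biUnion fun ij => (f.coeff ij.1).coeff.support with hT
  rw [finsum_eq_sum_of_support_subset (s := A.image Prod.fst ×ˢ T)]
  · rw [Finset.sum_product, Finset.sum_image, ar, HahnSeries.coeff_mul,
      AddMonoidAlgebra.coeff_sum, Finsupp.finset_sum_apply]
    · refine Finset.sum_congr rfl fun ij hij => ?_
      have h1 : ij.2 = n - ij.1 := by
        have := (Finset.mem_antidiagonal.1 hij).2.2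
        omega
      rw [AddMonoidAlgebra.coeff_mul_apply_left, Finsupp.sum_of_support_subset _
        (s := T) (Finset.subset_biUnion_of_mem (fun ij : ℤ × ℤ => (f.coeff ij.1).coeff.support) hij)
        _ (by simp), h1]
      refine Finset.sum_congr rfl fun a _ => ?_
      rw [neg_add_eq_sub]
      rfl
    · intro x hx y hy h
      have h1 := (Finset.mem_antidiagonal.1 hx).2.2
      have h2 := (Finset.mem_antidiagonal.1 hy).2.2
      exact Prod.ext h (by omega)
  · intro p hp
    have h1 : ar f p.1 p.2 ≠ 0 := left_ne_zero_of_mul hp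
    have h2 : ar g (n - p.1) (k - p.2) ≠ 0 := right_ne_zero_of_mul hp
    have h3 : (p.1, n - p.1) ∈ A := Finset.mem_antidiagonal.2
      ⟨fun h => h1 (by rw [ar, h]; rfl), fun h => h2 (by rw [ar, h]; rfl), by simp⟩
    exact Finset.mem_coe.2 (Finset.mem_product.2 ⟨Finset.mem_image.2 ⟨_, h3, rfl⟩,
      Finset.mem_biUnion.2 ⟨_, h3, Finsupp.mem_support_iff.2 h1⟩⟩)

/-- the shear of the exponent plane -/
def shear (h : ℤ) : ℤ × ℤ ≃ ℤ × ℤ where
  toFun p := (p.1 + h * p.2, p.2)
  invFun p := (p.1 - h * p.2, p.2)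
  left_inv p := by simp
  right_inv p := by simp

lemma shift {M : ℤ} {θ : ℤ → Fin 3 → R} (hθ : IsTh M θ) : ShiftP θ := by
  intro β h F
  induction F using MvPolynomial.induction_on with
  | C a =>
    intro n k
    simp only [ev, eval₂Hom_C, ar, hm_coeff, LaurentPolynomial.C_apply]
    split_ifs with hk
    · rw [hk, mul_zero, add_zero]
    · rfl
  | add p q hp hq => intro n k; rw [map_add, map_add, ar_add, ar_add, hp, hq]
  | mul_X p i hp =>
    intro n k
    have e : ∀ β, ev θ β (X i) = θ β i := fun β => eval₂Hom_X' _ _ i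
    rw [map_mul, map_mul, e, e, ar_mul, ar_mul, ← finsum_comp_equiv (shear h)]
    refine finsum_congr fun x => ?_
    change ar _ (x.1 + h * x.2) x.2 * ar _ (n + h * k - (x.1 + h * x.2)) (k - x.2) = _
    rw [hp, hθ, hθ]
    congr 1
    refine if_congr (and_congr_right fun _ => ?_) rfl rfl
    constructor <;> intro h1 <;> linear_combination h1

/-- the multiplier of the translation by three -/
noncomputable def mu (a : ℤ) : R := HahnSeries.single (-a) (LaurentPolynomial.T (-3))

lemma ar_mu (a : ℤ) (f : R) (n k : ℤ) : ar (mu a * f) n k = ar f (n + a) (k + 3) := by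
  rw [ar, mu, HahnSeries.coeff_single_mul, LaurentPolynomial.T,
    AddMonoidAlgebra.coeff_single_mul_apply, one_mul, sub_neg_eq_add, neg_neg, add_comm 3 k]
  rfl

lemma ar_mu_pow (a : ℤ) (f : R) (e : ℕ) :
    ∀ n k : ℤ, ar (mu a ^ e * f) n k = ar f (n + a * e) (k + 3 * e) := by
  induction e with
  | zero => intro n k; simp
  | succ e ih =>
    intro n k
    rw [pow_succ', mul_assoc, ar_mu, ih]
    congr 1 <;> push_cast <;> ring

lemma hom_scale {A B : Type} [CommRing A] [CommRing B] (f : A →+* B) (g : Fin 3 → B) (s : B)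
    {F : MvPolynomial (Fin 3) A} {e : ℕ} (hF : F.IsHomogeneous e) :
    eval₂ f (fun i => s * g i) F = s ^ e * eval₂ f g F := by
  rw [eval₂_eq', eval₂_eq', Finset.mul_sum]
  refine Finset.sum_congr rfl fun d hd => ?_
  have h1 : ∑ i, d i = e := by
    have := hF (mem_support_iff.1 hd)
    rw [← this, Finsupp.weight_apply, Finsupp.sum_fintype _ _ (by simp)]
    simp
  simp only [mul_pow, Finset.prod_mul_distrib, Finset.prod_pow_eq_pow_sum, h1]
  ring

lemma recp {M : ℤ} {θ : ℤ → Fin 3 → R} (hθ : IsTh M θ) : RecP M θ := by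
  intro β F e hF n k
  have h1 : θ (β + 6 * M) = fun i => mu (3 * β + 9 * M) * θ β i := by
    funext i
    refine ar_ext fun n k => ?_
    rw [ar_mu, hθ, hθ]
    refine if_congr (and_congr (by rw [Int.add_emod_right]) ?_) rfl rfl
    constructor <;> intro h1 <;> linear_combination h1
  have h2 : ev θ (β + 6 * M) F = mu (3 * β + 9 * M) ^ e * ev θ β F := by
    rw [ev, ev, h1]
    exact hom_scale _ _ _ hF
  rw [← shift hθ β (6 * M) F n k, h2, ar_mu_pow]

end ThM

theorem th : TStmt := fun M hM =>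
  have h : IsTh M (ThM.the M hM) := fun _ _ _ _ => rfl
  ⟨ThM.the M hM, h, ThM.shift h, ThM.recp h⟩

end Vale.Agent.P279
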