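import Vale.Agent.P279.Spec

/-! Module W: nine fat points on `w = 0` force wide rows. -/

namespace Vale.Agent.P279

open Polynomial

namespace Wd

lemma dvd_row {m : ℕ} {c : ℂ} {S : Finset ℕ} {b : ℕ → L} (h : Van m c 0 S b) {N : ℕ}
    {p : ℕ → ℂ[X]} (hp : ∀ j ∈ S, toLaurent (p j) = b j * LaurentPolynomial.T N) {j : ℕ}
    (hj : j ∈ S) (hm : j < m) : (X - C c) ^ (m - j) ∣ p j := by
  obtain ⟨ε, ⟨e1, e2⟩, h⟩ := h
  let η : ℂ[X] →+* MvPolynomial (Fin 2) ℂ :=
    eval₂RingHom MvPolynomial.C (MvPolynomial.C c + MvPolynomial.X 0)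
  have e3 : ε.comp toLaurent = (jq m).comp η :=
    Polynomial.ringHom_ext (fun a => by simp [η, e1]) (by simp [η, e2])
  have h1 : jq m (∑ j ∈ S, MvPolynomial.X 1 ^ j * η (p j)) = 0 := by
    rw [← zero_mul (ε (LaurentPolynomial.T N)), ← h, Finset.sum_mul, map_sum]
    refine Finset.sum_congr rfl fun i hi => ?_
    rw [mul_assoc, ← map_mul ε, ← hp i hi, map_mul, map_pow, map_zero, zero_add]
    exact congrArg _ (RingHom.congr_fun e3 (p i)).symm
  let ψ : MvPolynomial (Fin 2) ℂ →+* ℂ[X][X] :=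
    MvPolynomial.eval₂Hom (C.comp C) ![C (X - C c), C (X - C c) * X]
  have e4 : ψ.comp η = C := Polynomial.ringHom_ext (fun a => by simp [η, ψ]) (by simp [η, ψ])
  have h2 : (MvPolynomial.idealOfVars (Fin 2) ℂ).map ψ ≤ Ideal.span {C (X - C c)} := by
    rw [Ideal.map_span, Ideal.span_le]
    rintro _ ⟨_, ⟨i, rfl⟩, rfl⟩
    rw [SetLike.mem_coe, Ideal.mem_span_singleton]
    fin_cases i <;> simp [ψ]
  have h3 := Ideal.mem_map_of_mem ψ (Ideal.Quotient.eq_zero_iff_mem.1 h1)
  rw [Ideal.map_pow] at h3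
  have h4 := Ideal.pow_right_mono h2 m h3
  rw [Ideal.span_singleton_pow, Ideal.mem_span_singleton, ← map_pow, C_dvd_iff_dvd_coeff] at h4
  have h5 := h4 j
  have e5 : ∀ i, ψ (MvPolynomial.X 1 ^ i * η (p i)) = monomial i ((X - C c) ^ i * p i) := by
    intro i
    rw [map_mul, map_pow, show ψ (η (p i)) = C (p i) from RingHom.congr_fun e4 (p i),
      ← C_mul_X_pow_eq_monomial,
      show ψ (MvPolynomial.X 1) = C (X - C c) * X from MvPolynomial.eval₂Hom_X' _ _ _,
      map_mul, map_pow]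
    ring
  simp only [map_sum, e5, finsetSum_coeff, coeff_monomial, Finset.sum_ite_eq', if_pos hj] at h5
  rwa [show m = j + (m - j) by omega, pow_add,
    mul_dvd_mul_iff_left (pow_ne_zero _ (X_sub_C_ne_zero c))] at h5

lemma coeff_eq {f : L} {N : ℕ} {p : ℂ[X]} (h : toLaurent p = f * LaurentPolynomial.T N) (k : ℕ) :
    f.coeff ((k : ℤ) - N) = p.coeff k := by
  have h1 := AddMonoidAlgebra.coeff_mul_single_apply f (1 : ℂ) (N : ℤ) (k : ℤ)
  rw [mul_one, ← sub_eq_add_neg] at h1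
  rw [← h1]
  change (f * LaurentPolynomial.T N).coeff k = _
  rw [← h, LaurentPolynomial.coeff_toLaurent]
  exact Finsupp.mapDomain_apply Nat.cast_injective _ k

end Wd

theorem wid : WStmt := by
  intro m c hc h0 S b hV j hj hm hb
  choose n q hq using fun j => LaurentPolynomial.exists_T_pow (b j)
  have hp : ∀ i ∈ S, toLaurent (q i * X ^ (S.sum n - n i)) =
      b i * LaurentPolynomial.T (S.sum n : ℕ) := by
    intro i hi
    have : n i ≤ S.sum n := Finset.single_le_sum (f := n) (fun _ _ => Nat.zero_le _) hi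
    rw [map_mul, hq, toLaurent_X_pow, LaurentPolynomial.mul_T_assoc]
    congr 2
    omega
  have h1 : ∏ i, (X - C (c i)) ^ (m - j) ∣ q j * X ^ (S.sum n - n j) :=
    Fintype.prod_dvd_of_coprime
      (fun i i' h => (pairwise_coprime_X_sub_C hc h).pow)
      fun i => Wd.dvd_row (hV i) hp hj hm
  have h2 := hp j hj
  generalize q j * X ^ (S.sum n - n j) = p at h1 h2
  have p0 : p ≠ 0 := by
    rintro rfl
    rw [map_zero, eq_comm, (LaurentPolynomial.isUnit_T _).mul_left_eq_zero] at h2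
    exact hb h2
  refine ⟨(p.natTrailingDegree : ℤ) - (S.sum n : ℕ), (p.natDegree : ℤ) - (S.sum n : ℕ), ?_, ?_, ?_⟩
  · rw [Wd.coeff_eq h2]; exact trailingCoeff_nonzero_iff_nonzero.2 p0
  · rw [Wd.coeff_eq h2]; exact leadingCoeff_ne_zero.2 p0
  · obtain ⟨r, rfl⟩ := h1
    have a1 := left_ne_zero_of_mul p0
    have a2 := right_ne_zero_of_mul p0
    have a3 : (∏ i, (X - C (c i)) ^ (m - j)).natTrailingDegree = 0 := by
      rw [natTrailingDegree_eq_zero, coeff_zero_eq_eval_zero, eval_prod]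
      exact Or.inr (Finset.prod_ne_zero_iff.2 fun i _ => by simp [h0 i])
    have a4 : (∏ i, (X - C (c i)) ^ (m - j)).natDegree = 9 * (m - j) := by
      rw [natDegree_prod_of_monic _ _ fun i _ => (monic_X_sub_C _).pow _]
      simp
    have a5 := natTrailingDegree_le_natDegree r
    rw [natTrailingDegree_mul a1 a2, natDegree_mul a1 a2, a3, a4]
    omega

end Vale.Agent.P279
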